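import Vale.Agent.P068_h2.Ray

/-!
Direct sums of uniform systems as matroids.
-/

namespace Vale.Agent.P068

open Set

variable {K β E : Type*}

/-- The slice of `X` at block `k`. -/
def sl (φ : K → β → E) (k : K) (X : Set E) : Set β := {b | φ k b ∈ X}

theorem sl_mono (φ : K → β → E) (k : K) {X Y : Set E} (h : X ⊆ Y) : sl φ k X ⊆ sl φ k Y :=
  fun _ hb => h hb

/-- The direct sum of the uniform systems `U k`, the block `k` being the image of `φ k`. -/
def blockIndep (φ : K → β → E) (hφ : Function.Bijective (fun p : K × β => φ p.1 p.2))
    (U : K → USys β) : IndepMatroid E where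
  E := univ
  Indep I := ∀ k, (U k).Ind (sl φ k I)
  indep_empty k := USys.ind_empty
  indep_subset I J hJ hIJ k := (hJ k).mono (sl_mono φ k hIJ)
  indep_aug := by
    intro I B hI hImax hB
    -- a block where `I` is not spanning
    obtain ⟨k, hk⟩ : ∃ k, ¬ (U k).Spn (sl φ k I) := by
      by_contra hcon
      push Not at hcon
      apply hImax
      refine ⟨hI, ?_⟩
      intro J hJ hIJ e he
      obtain ⟨⟨k, b⟩, hkb⟩ := hφ.2 e
      replace hkb : φ k b = e := hkb
      have h1 := USys.Ind.eq_of_spn (hJ k) (hcon k) (sl_mono φ k hIJ)
      have h2 : b ∈ sl φ k J := by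
        change φ k b ∈ J
        rw [hkb]; exact he
      rw [← h1] at h2
      change φ k b ∈ I at h2
      rwa [hkb] at h2
    have hBk : (U k).Spn (sl φ k B) := by
      by_contra hcon
      have hne : ∃ b, b ∉ sl φ k B := by
        by_contra hall
        push Not at hall
        apply hcon
        have : sl φ k B = univ := eq_univ_of_forall hall
        rw [this]
        exact USys.spn_univ
      obtain ⟨b, hb⟩ := hne
      have hins : ∀ k', (U k').Ind (sl φ k' (insert (φ k b) B)) := by
        intro k'
        by_cases hkk : k' = k
        · subst hkk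
          have : sl φ k' (insert (φ k' b) B) = insert b (sl φ k' B) := by
            ext b'
            simp only [sl, mem_ofPred_eq, mem_insert_iff]
            constructor
            · rintro (h | h)
              · left
                have := hφ.1 (a₁ := (k', b')) (a₂ := (k', b)) h
                exact (Prod.ext_iff.1 this).2
              · exact Or.inr h
            · rintro (rfl | h)
              · exact Or.inl rfl
              · exact Or.inr h
          rw [this]
          exact (hB.1 k').insert hcon b
        · have : sl φ k' (insert (φ k b) B) = sl φ k' B := by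
            ext b'
            simp only [sl, mem_ofPred_eq, mem_insert_iff]
            constructor
            · rintro (h | h)
              · exfalso
                have := hφ.1 (a₁ := (k', b')) (a₂ := (k, b)) h
                exact hkk (Prod.ext_iff.1 this).1
              · exact h
            · exact Or.inr
          rw [this]
          exact hB.1 k'
      exact hb (hB.2 hins (subset_insert _ _) (mem_insert _ _))
    obtain ⟨b, hb1, hb2⟩ : ∃ b ∈ sl φ k B, b ∉ sl φ k I := by
      by_contra hcon
      push Not at hcon
      exact hk (hBk.mono hcon)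
    refine ⟨φ k b, ⟨hb1, hb2⟩, ?_⟩
    intro k'
    by_cases hkk : k' = k
    · subst hkk
      have : sl φ k' (insert (φ k' b) I) = insert b (sl φ k' I) := by
        ext b'
        simp only [sl, mem_ofPred_eq, mem_insert_iff]
        constructor
        · rintro (h | h)
          · left
            have := hφ.1 (a₁ := (k', b')) (a₂ := (k', b)) h
            exact (Prod.ext_iff.1 this).2
          · exact Or.inr h
        · rintro (rfl | h)
          · exact Or.inl rfl
          · exact Or.inr h
      rw [this]
      exact (hI k').insert hk b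
    · have : sl φ k' (insert (φ k b) I) = sl φ k' I := by
        ext b'
        simp only [sl, mem_ofPred_eq, mem_insert_iff]
        constructor
        · rintro (h | h)
          · exfalso
            have := hφ.1 (a₁ := (k', b')) (a₂ := (k, b)) h
            exact hkk (Prod.ext_iff.1 this).1
          · exact h
        · exact Or.inr
      rw [this]
      exact hI k'
  indep_maximal := by
    classical
    intro X _ I hI hIX
    have hJ : ∀ k, ∃ J : Set β, (U k).Ind J ∧ sl φ k I ⊆ J ∧ J ⊆ sl φ k X ∧
        (∀ J', (U k).Ind J' → J ⊆ J' → J' ⊆ sl φ k X → J' ⊆ J) := by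
      intro k
      by_cases hX : (U k).Spn (sl φ k X)
      · obtain ⟨J, hJ, h1, h2⟩ := USys.exists_base_between (sl_mono φ k hIX) (hI k) hX
        refine ⟨J, USys.Base.ind hJ, h1, h2, ?_⟩
        intro J' hJ' hJJ' _
        rw [USys.Base.eq_of_ind hJ hJ' hJJ']
      · have hind : (U k).Ind (sl φ k X) := (USys.ind_or_spn _).resolve_right hX
        exact ⟨_, hind, sl_mono φ k hIX, Subset.rfl, fun J' _ _ h => h⟩
    choose J hJ1 hJ2 hJ3 hJ4 using hJ
    have hsl : ∀ k, sl φ k {e | ∃ k b, φ k b = e ∧ b ∈ J k} = J k := by
      intro k
      ext b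
      simp only [sl, mem_ofPred_eq]
      constructor
      · rintro ⟨k', b', h, hb⟩
        have := hφ.1 (a₁ := (k', b')) (a₂ := (k, b)) h
        obtain ⟨h1, h2⟩ := Prod.ext_iff.1 this
        simp only at h1 h2
        subst h1 h2
        exact hb
      · intro hb
        exact ⟨k, b, rfl, hb⟩
    refine ⟨{e | ∃ k b, φ k b = e ∧ b ∈ J k}, ?_, ⟨⟨fun k => ?_, ?_⟩, ?_⟩⟩
    · intro e he
      obtain ⟨⟨k, b⟩, hkb⟩ := hφ.2 e
      replace hkb : φ k b = e := hkb
      refine ⟨k, b, hkb, hJ2 k ?_⟩
      change φ k b ∈ I
      rw [hkb]; exact he
    · rw [hsl k]; exact hJ1 k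
    · rintro e ⟨k, b, rfl, hb⟩
      exact hJ3 k hb
    · rintro J' ⟨hJ', hJ'X⟩ hle e he
      obtain ⟨⟨k, b⟩, hkb⟩ := hφ.2 e
      replace hkb : φ k b = e := hkb
      refine ⟨k, b, hkb, ?_⟩
      apply hJ4 k (sl φ k J') (hJ' k) ?_ (sl_mono φ k hJ'X)
      · change φ k b ∈ J'
        rw [hkb]; exact he
      · intro b' hb'
        apply hle
        exact ⟨k, b', rfl, hb'⟩
  subset_ground I _ := subset_univ I

/-- The direct sum matroid. -/
def blockMatroid (φ : K → β → E) (hφ : Function.Bijective (fun p : K × β => φ p.1 p.2))
    (U : K → USys β) : Matroid E := (blockIndep φ hφ U).matroid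

theorem blockMatroid_indep {φ : K → β → E}
    {hφ : Function.Bijective (fun p : K × β => φ p.1 p.2)} {U : K → USys β} {I : Set E} :
    (blockMatroid φ hφ U).Indep I ↔ ∀ k, (U k).Ind (sl φ k I) := Iff.rfl

theorem blockMatroid_ground {φ : K → β → E}
    {hφ : Function.Bijective (fun p : K × β => φ p.1 p.2)} {U : K → USys β} :
    (blockMatroid φ hφ U).E = univ := rfl

theorem blockMatroid_closure {φ : K → β → E}
    {hφ : Function.Bijective (fun p : K × β => φ p.1 p.2)} {U : K → USys β} {I : Set E}
    (hI : (blockMatroid φ hφ U).Indep I) {k : K} {b : β}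
    (h : φ k b ∈ (blockMatroid φ hφ U).closure I) : φ k b ∈ I ∨ (U k).Spn (sl φ k I) := by
  by_contra hcon
  push Not at hcon
  obtain ⟨h1, h2⟩ := hcon
  rw [hI.mem_closure_iff'] at h
  apply h1
  apply h.2
  intro k'
  by_cases hkk : k' = k
  · subst hkk
    have : sl φ k' (insert (φ k' b) I) = insert b (sl φ k' I) := by
      ext b'
      simp only [sl, mem_ofPred_eq, mem_insert_iff]
      constructor
      · rintro (h | h)
        · left
          have := hφ.1 (a₁ := (k', b')) (a₂ := (k', b)) h
          exact (Prod.ext_iff.1 this).2
        · exact Or.inr h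
      · rintro (rfl | h)
        · exact Or.inl rfl
        · exact Or.inr h
    rw [this]
    exact (hI k').insert h2 b
  · have : sl φ k' (insert (φ k b) I) = sl φ k' I := by
      ext b'
      simp only [sl, mem_ofPred_eq, mem_insert_iff]
      constructor
      · rintro (h | h)
        · exfalso
          have := hφ.1 (a₁ := (k', b')) (a₂ := (k, b)) h
          exact hkk (Prod.ext_iff.1 this).1
        · exact h
      · exact Or.inr
    rw [this]
    exact hI k'

/-- A block matroid is a direct sum of uniform matroids. -/
theorem blockMatroid_isUniformSum {φ : ℤ → β → E}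
    {hφ : Function.Bijective (fun p : ℤ × β => φ p.1 p.2)} {U : ℤ → USys β} :
    IsUniformSum (blockMatroid φ hφ U) := by
  classical
  let e := Equiv.ofBijective _ hφ
  have he : ∀ k b, (e.symm (φ k b)).1 = k := by
    intro k b
    have : e.symm (φ k b) = (k, b) := by
      rw [Equiv.symm_apply_eq]
      rfl
    rw [this]
  refine ⟨fun x => (e.symm x).1, ?_, ?_⟩
  · intro X
    have hsame : ∀ k, sl φ k (X ∩ (fun x => (e.symm x).1) ⁻¹' {k}) = sl φ k X := by
      intro k
      ext b
      simp only [sl, mem_ofPred_eq, mem_inter_iff, mem_preimage, mem_singleton_iff, he, and_true]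
    have hdiff : ∀ k k', k ≠ k' → sl φ k' (X ∩ (fun x => (e.symm x).1) ⁻¹' {k}) = ∅ := by
      intro k k' hkk
      ext b
      simp only [sl, mem_ofPred_eq, mem_inter_iff, mem_preimage, mem_singleton_iff, he,
        mem_empty_iff_false, iff_false, not_and]
      intro _ h
      exact hkk h.symm
    rw [blockMatroid_indep]
    constructor
    · intro h k
      rw [blockMatroid_indep]
      intro k'
      by_cases hkk : k = k'
      · subst hkk
        rw [hsame]; exact h k
      · rw [hdiff k k' hkk]
        exact USys.ind_empty
    · intro h k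
      have := blockMatroid_indep.1 (h k) k
      rwa [hsame] at this
  · intro k X hX
    rcases USys.ind_or_spn (U := U k) (sl φ k X) with h | ⟨B, hB, hBX⟩
    · left
      rw [blockMatroid_indep]
      intro k'
      by_cases hkk : k = k'
      · subst hkk; exact h
      · have : sl φ k' X = ∅ := by
          ext b
          simp only [sl, mem_ofPred_eq, mem_empty_iff_false, iff_false]
          intro hb
          have h1 : (e.symm (φ k' b)).1 = k := hX hb
          rw [he] at h1
          exact hkk h1.symm
        rw [this]
        exact USys.ind_empty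
    · right
      have hslB : sl φ k (φ k '' B) = B := by
        ext b
        simp only [sl, mem_ofPred_eq, mem_image]
        constructor
        · rintro ⟨b', hb', h⟩
          have := hφ.1 (a₁ := (k, b')) (a₂ := (k, b)) h
          have h2 : b' = b := (Prod.ext_iff.1 this).2
          rw [← h2]
          exact hb'
        · intro hb
          exact ⟨b, hb, rfl⟩
      have hslB' : ∀ k', k ≠ k' → sl φ k' (φ k '' B) = ∅ := by
        intro k' hkk
        ext b
        simp only [sl, mem_ofPred_eq, mem_image, mem_empty_iff_false, iff_false, not_exists,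
          not_and]
        intro b' _ h
        have := hφ.1 (a₁ := (k, b')) (a₂ := (k', b)) h
        exact hkk (Prod.ext_iff.1 this).1
      have hI : (blockMatroid φ hφ U).Indep (φ k '' B) := by
        rw [blockMatroid_indep]
        intro k'
        by_cases hkk : k = k'
        · subst hkk
          rw [hslB]; exact USys.Base.ind hB
        · rw [hslB' k' hkk]
          exact USys.ind_empty
      have hsub : φ k '' B ⊆ X := by
        rintro _ ⟨b, hb, rfl⟩
        exact hBX hb
      intro x hx
      apply (blockMatroid φ hφ U).closure_subset_closure hsub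
      rw [hI.mem_closure_iff']
      refine ⟨mem_univ x, fun hins => ?_⟩
      obtain ⟨⟨k', b⟩, hkb⟩ := hφ.2 x
      replace hkb : φ k' b = x := hkb
      have hk' : k' = k := by
        have h1 : (e.symm x).1 = k := hx
        rw [← hkb, he] at h1
        exact h1
      subst hk'
      have h2 := blockMatroid_indep.1 hins k'
      have h3 : B ⊆ sl φ k' (insert x (φ k' '' B)) := by
        intro b' hb'
        exact Or.inr ⟨b', hb', rfl⟩
      have h4 := USys.Base.eq_of_ind hB h2 h3
      have h5 : b ∈ sl φ k' (insert x (φ k' '' B)) := Or.inl hkb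
      rw [← h4] at h5
      exact ⟨b, h5, hkb⟩

end Vale.Agent.P068
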