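import Mathlib

/-!
The intersection property, packing/covering partitions, direct sums of uniform matroids, and the
hypothesis `𝔯 = 𝔠`.
-/

namespace Vale.Agent.P068

open Set Matroid Cardinal

/-- The pair `(M, N)` of matroids satisfies intersection: some set `J` that is independent in both
has a partition `J = J₁ ∪ J₂` with `cl_M(J₁) ∪ cl_N(J₂)` the whole ground set. -/
def SatisfiesIntersection {α : Type*} (M N : Matroid α) : Prop :=
  ∃ J J₁ J₂ : Set α, M.Indep J ∧ N.Indep J ∧ J₁ ∪ J₂ = J ∧ Disjoint J₁ J₂ ∧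
    M.closure J₁ ∪ N.closure J₂ = M.E

/-- The family `(M i)` of matroids on the ground set `E` has a packing/covering partition:
`E = P ∪ C` (disjoint), pairwise disjoint sets `S i ⊆ P`, spanning in `M i` restricted to `P`,
and sets `I i`, independent in the contraction `(M i).C = ((M i)✶ ↾ C)✶` of `M i` onto `C`,
with union `C`. -/
def HasPackingCovering {α Θ : Type*} (M : Θ → Matroid α) (E : Set α) : Prop :=
  ∃ (P C : Set α) (S I : Θ → Set α), P ∪ C = E ∧ Disjoint P C ∧
    (∀ i, S i ⊆ P ∧ (M i ↾ P).closure (S i) = P) ∧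
    (∀ i j, i ≠ j → Disjoint (S i) (S j)) ∧
    (∀ i, ((M i)✶ ↾ C)✶.Indep (I i)) ∧ ⋃ i, I i = C

/-- `M` is a direct sum of countably many uniform matroids: the ground set is partitioned into
the fibres of `f`, a set is independent iff its trace on every fibre is, and every subset of a
fibre is independent or spans the fibre. -/
def IsUniformSum {α : Type*} (M : Matroid α) : Prop :=
  ∃ f : α → ℤ, (∀ X : Set α, M.Indep X ↔ ∀ k, M.Indep (X ∩ f ⁻¹' {k})) ∧
    ∀ (k : ℤ) (X : Set α), X ⊆ f ⁻¹' {k} → M.Indep X ∨ f ⁻¹' {k} ⊆ M.closure X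

/-- The hypothesis `𝔯 = 𝔠`: every family of fewer than continuum many infinite sets of natural
numbers is split by a single set of natural numbers. -/
def SplitHyp : Prop :=
  ∀ S : Set (Set ℕ), #S < Cardinal.continuum → (∀ A ∈ S, A.Infinite) →
    ∃ G : Set ℕ, ∀ A ∈ S, (A ∩ G).Infinite ∧ (A \ G).Infinite

end Vale.Agent.P068
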