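import Vale.Agent.P068_h2.Block
import Vale.Agent.P068_h2.Defs

/-!
The counterexample.
-/

namespace Vale.Agent.P068

open Set Matroid

/-- A packing/covering partition of `(M, N✶)` gives the intersection property of `(M, N)`. -/
theorem intersection_of_packingCovering {α : Type*} {M N : Matroid α} (hM : M.E = univ)
    (hN : N.E = univ)
    (h : HasPackingCovering (fun b : Bool => cond b M N✶) univ) : SatisfiesIntersection M N := by
  obtain ⟨P, C, S, I, hPC, hdisj, hS, hSd, hI, hIC⟩ := h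
  have hS1 := hS true
  have hS2 := hS false
  have hI1 := hI true
  have hI2 := hI false
  have hd := hSd true false (by simp)
  simp only [cond_true, cond_false] at hS1 hS2 hI1 hI2 hd
  rw [Matroid.dual_dual] at hI2
  have hCP : C = univ \ P := by
    ext x
    constructor
    · intro hx
      exact ⟨mem_univ x, fun hp => hdisj.le_bot ⟨hp, hx⟩⟩
    · rintro ⟨_, hx⟩
      have : x ∈ P ∪ C := by rw [hPC]; exact mem_univ x
      exact this.resolve_left hx
  have hPC' : P = univ \ C := by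
    rw [hCP]; simp
  -- the basis of `P`
  obtain ⟨J₁, hJ₁⟩ := M.exists_isBasis (S true) (by rw [hM]; exact subset_univ _)
  have hPcl : P ⊆ M.closure (S true) := by
    have := hS1.2
    rw [Matroid.restrict_closure_eq _ hS1.1 (by rw [hM]; exact subset_univ _)] at this
    rw [← this]
    exact inter_subset_left.trans Subset.rfl
  have hJ₁P : M.IsBasis J₁ P := by
    rw [Matroid.isBasis_iff_indep_subset_closure]
    refine ⟨hJ₁.indep, hJ₁.subset.trans hS1.1, ?_⟩
    rw [hJ₁.closure_eq_closure]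
    exact hPcl
  -- the basis of `C`
  have hI1C : I true ⊆ C := hI1.subset_ground
  have hI2C : I false ⊆ C := hI2.subset_ground
  have hspan : (N ↾ C).Spanning (I true) := by
    have h1 : (N ↾ C).Coindep (I false) := hI2
    have h2 := h1.compl_spanning
    refine h2.superset ?_ hI1C
    rintro x ⟨hx, hx'⟩
    have : x ∈ ⋃ i, I i := by rw [hIC]; exact hx
    obtain ⟨i, hi⟩ := mem_iUnion.1 this
    cases i with
    | true => exact hi
    | false => exact absurd hi hx'
  have hCcl : C ⊆ N.closure (I true) :=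
    (Matroid.restrict_spanning_iff hI1C (by rw [hN]; exact subset_univ _)).1 hspan
  obtain ⟨J₂, hJ₂⟩ := N.exists_isBasis (I true) (by rw [hN]; exact subset_univ _)
  have hJ₂C : N.IsBasis J₂ C := by
    rw [Matroid.isBasis_iff_indep_subset_closure]
    refine ⟨hJ₂.indep, hJ₂.subset.trans hI1C, ?_⟩
    rw [hJ₂.closure_eq_closure]
    exact hCcl
  refine ⟨J₁ ∪ J₂, J₁, J₂, ?_, ?_, rfl, ?_, ?_⟩
  · have e : (M✶ ↾ C)✶ = M ／ P := by
      rw [hCP]
      change (M✶ ↾ (univ \ P))✶ = (M✶ ＼ P)✶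
      rw [Matroid.delete_eq_restrict, Matroid.dual_ground, hM]
    rw [e] at hI1
    have h1 : (M ／ P).Indep J₂ := hI1.subset hJ₂.subset
    have h2 := (hJ₁P.contract_indep_iff.1 h1).1
    rwa [union_comm] at h2
  · have e : (N✶ ↾ P)✶ = N ／ C := by
      rw [hPC']
      change (N✶ ↾ (univ \ C))✶ = (N✶ ＼ C)✶
      rw [Matroid.delete_eq_restrict, Matroid.dual_ground, hN]
    have hsp : (N✶ ↾ P).Spanning (S false) := by
      rw [Matroid.restrict_spanning_iff hS2.1 (by rw [Matroid.dual_ground, hN]; exact subset_univ _)]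
      have := hS2.2
      rw [Matroid.restrict_closure_eq _ hS2.1
        (by rw [Matroid.dual_ground, hN]; exact subset_univ _)] at this
      rw [← this]
      exact inter_subset_left
    have h1 : (N✶ ↾ P)✶.Indep (P \ S false) := hsp.compl_coindep
    have h2 : (N✶ ↾ P)✶.Indep J₁ := by
      refine h1.subset ?_
      intro x hx
      exact ⟨hS1.1 (hJ₁.subset hx), fun hx' => hd.le_bot ⟨hJ₁.subset hx, hx'⟩⟩
    rw [e] at h2
    exact (hJ₂C.contract_indep_iff.1 h2).1
  · refine hdisj.mono (hJ₁.subset.trans hS1.1) (hJ₂.subset.trans hI1C)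
  · apply Subset.antisymm
    · rw [hM]; exact subset_univ _
    · rw [hM, ← hPC]
      exact union_subset_union hJ₁P.subset_closure hJ₂C.subset_closure

/-- The embedding of block `n` (between levels `n` and `n + 1`). -/
def emb (n : ℤ) : ℕ ⊕ ℕ → ℤ × ℕ := Sum.elim (fun x => (n, x)) (fun x => (n + 1, x))

/-- The even blocks partition `ℤ × ℕ`. -/
theorem even_bij : Function.Bijective (fun p : ℤ × (ℕ ⊕ ℕ) => emb (2 * p.1) p.2) := by
  constructor
  · rintro ⟨k, a | a⟩ ⟨l, b | b⟩ h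
    · simp only [emb, Sum.elim_inl, Prod.mk.injEq] at h
      obtain ⟨h1, h2⟩ := h
      have : k = l := by omega
      subst this h2
      rfl
    · simp only [emb, Sum.elim_inl, Sum.elim_inr, Prod.mk.injEq] at h
      omega
    · simp only [emb, Sum.elim_inl, Sum.elim_inr, Prod.mk.injEq] at h
      omega
    · simp only [emb, Sum.elim_inr, Prod.mk.injEq] at h
      obtain ⟨h1, h2⟩ := h
      have : k = l := by omega
      subst this h2
      rfl
  · rintro ⟨n, x⟩
    rcases Int.even_or_odd' n with ⟨k, hk | hk⟩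
    · exact ⟨(k, Sum.inl x), by simp [emb, hk]⟩
    · exact ⟨(k, Sum.inr x), by simp [emb, hk]⟩

/-- The odd blocks partition `ℤ × ℕ`. -/
theorem odd_bij : Function.Bijective (fun p : ℤ × (ℕ ⊕ ℕ) => emb (2 * p.1 + 1) p.2) := by
  constructor
  · rintro ⟨k, a | a⟩ ⟨l, b | b⟩ h
    · simp only [emb, Sum.elim_inl, Prod.mk.injEq] at h
      obtain ⟨h1, h2⟩ := h
      have : k = l := by omega
      subst this h2
      rfl
    · simp only [emb, Sum.elim_inl, Sum.elim_inr, Prod.mk.injEq] at h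
      omega
    · simp only [emb, Sum.elim_inl, Sum.elim_inr, Prod.mk.injEq] at h
      omega
    · simp only [emb, Sum.elim_inr, Prod.mk.injEq] at h
      obtain ⟨h1, h2⟩ := h
      have : k = l := by omega
      subst this h2
      rfl
  · rintro ⟨n, x⟩
    rcases Int.even_or_odd' n with ⟨k, hk | hk⟩
    · refine ⟨(k - 1, Sum.inr x), ?_⟩
      simp only [emb, Sum.elim_inr, Prod.mk.injEq, and_true]
      omega
    · refine ⟨(k, Sum.inl x), ?_⟩
      simp only [emb, Sum.elim_inl, Prod.mk.injEq, and_true]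
      omega

/-- The uniform system at block `n`. -/
noncomputable def Ln (L : USys (ℕ ⊕ ℕ)) (n : ℤ) : USys (ℕ ⊕ ℕ) :=
  open Classical in if 0 ≤ n then L else L.dual.comap (Equiv.sumComm ℕ ℕ)

theorem Ln_ind_nonneg {L : USys (ℕ ⊕ ℕ)} {n : ℤ} (hn : 0 ≤ n) {X : Set (ℕ ⊕ ℕ)} :
    (Ln L n).Ind X ↔ L.Ind X := by
  unfold Ln; rw [if_pos hn]

theorem Ln_spn_nonneg {L : USys (ℕ ⊕ ℕ)} {n : ℤ} (hn : 0 ≤ n) {X : Set (ℕ ⊕ ℕ)} :
    (Ln L n).Spn X ↔ L.Spn X := by
  unfold Ln; rw [if_pos hn]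

theorem swap_mk2 (V Y : Set ℕ) : (Equiv.sumComm ℕ ℕ).symm ⁻¹' (mk2 V Y) = mk2 Y V := by
  ext z; cases z <;> simp

theorem Ln_ind_neg {L : USys (ℕ ⊕ ℕ)} {n : ℤ} (hn : n < 0) {V V' : Set ℕ} :
    (Ln L n).Ind (mk2 V V'ᶜ) ↔ L.Spn (mk2 V' Vᶜ) := by
  unfold Ln; rw [if_neg (not_le.2 hn), USys.comap_ind, swap_mk2, USys.dual_ind, mk2_compl,
    compl_compl]

theorem Ln_spn_neg {L : USys (ℕ ⊕ ℕ)} {n : ℤ} (hn : n < 0) {V V' : Set ℕ} :
    (Ln L n).Spn (mk2 V V'ᶜ) ↔ L.Ind (mk2 V' Vᶜ) := by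
  unfold Ln; rw [if_neg (not_le.2 hn), USys.comap_spn, swap_mk2, USys.dual_spn, mk2_compl,
    compl_compl]

/-- The first matroid: the direct sum of the even blocks. -/
noncomputable def MM (L : USys (ℕ ⊕ ℕ)) : Matroid (ℤ × ℕ) :=
  blockMatroid (fun k : ℤ => emb (2 * k)) even_bij (fun k => Ln L (2 * k))

/-- The second matroid: the direct sum of the duals of the odd blocks. -/
noncomputable def NN (L : USys (ℕ ⊕ ℕ)) : Matroid (ℤ × ℕ) :=
  blockMatroid (fun k : ℤ => emb (2 * k + 1)) odd_bij (fun k => (Ln L (2 * k + 1)).dual)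

theorem sl_emb (J : Set (ℤ × ℕ)) (n : ℤ) :
    {b | emb n b ∈ J} = mk2 {x | (n, x) ∈ J} {x | (n + 1, x) ∈ J} := by
  ext z; cases z <;> simp [emb]

theorem not_intersection {L : USys (ℕ ⊕ ℕ)}
    (F1 : ∀ V V' : Set ℕ, V.Infinite → L.Ind (mk2 V V'ᶜ) → V'.Infinite)
    (F2 : ∀ V V' : Set ℕ, V.Finite → L.Spn (mk2 V V'ᶜ) → V'.Finite ∧ V'.ncard < V.ncard)
    (F3 : ∀ W : ℕ → Set ℕ, (∀ m, (W m).Infinite) →
      (∀ m, L.Ind (mk2 (W m) (W (m + 1))ᶜ)) → False) :
    ¬ SatisfiesIntersection (MM L) (NN L) := by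
  classical
  rintro ⟨J, J₁, J₂, hMJ, hNJ, rfl, hdisj, hcl⟩
  -- the slices
  let s : ℤ → Set (ℤ × ℕ) → Set (ℕ ⊕ ℕ) := fun n X => {b | emb n b ∈ X}
  have hMJ' : ∀ n : ℤ, Even n → (Ln L n).Ind (s n (J₁ ∪ J₂)) := by
    rintro n ⟨k, hk⟩
    have e : n = 2 * k := by omega
    subst e
    exact blockMatroid_indep.1 hMJ k
  have hNJ' : ∀ n : ℤ, ¬ Even n → (Ln L n).Spn (s n (J₁ ∪ J₂))ᶜ := by
    intro n hn
    obtain ⟨k, hk⟩ := Int.not_even_iff_odd.1 hn
    subst hk
    exact USys.dual_ind.1 (blockMatroid_indep.1 hNJ k)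
  have hM1 : (MM L).Indep J₁ := hMJ.subset subset_union_left
  have hN2 : (NN L).Indep J₂ := hNJ.subset subset_union_right
  have hclM : ∀ (n : ℤ) (b : ℕ ⊕ ℕ), Even n → emb n b ∈ (MM L).closure J₁ →
      emb n b ∈ J₁ ∨ (Ln L n).Spn (s n J₁) := by
    rintro n b ⟨k, hk⟩ hb
    have e : n = 2 * k := by omega
    subst e
    exact blockMatroid_closure hM1 hb
  have hclN : ∀ (n : ℤ) (b : ℕ ⊕ ℕ), ¬ Even n → emb n b ∈ (NN L).closure J₂ →
      emb n b ∈ J₂ ∨ (Ln L n).Ind (s n J₂)ᶜ := by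
    intro n b hn hb
    obtain ⟨k, hk⟩ := Int.not_even_iff_odd.1 hn
    subst hk
    have := blockMatroid_closure hN2 hb
    rwa [USys.dual_spn] at this
  -- the assignment and the labels
  let V : ℤ → Set ℕ := fun n => if Even n then {x | (n, x) ∈ J₁ ∪ J₂} else {x | (n, x) ∉ J₁ ∪ J₂}
  let t : ℤ → Prop := fun n => if Even n then (Ln L n).Spn (s n J₁) else ¬ (Ln L n).Ind (s n J₂)ᶜ
  have hVe : ∀ n, Even n → s n (J₁ ∪ J₂) = mk2 (V n) (V (n + 1))ᶜ := by
    intro n hn
    have hn1 : ¬ Even (n + 1) := by rw [Int.even_add_one]; simpa using hn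
    simp only [s, V, if_pos hn, if_neg hn1, sl_emb]
    congr 1
    ext x
    simp only [mem_ofPred_eq, mem_compl_iff, not_not]
  have hVo : ∀ n, ¬ Even n → (s n (J₁ ∪ J₂))ᶜ = mk2 (V n) (V (n + 1))ᶜ := by
    intro n hn
    have hn1 : Even (n + 1) := by rw [Int.even_add_one]; exact hn
    simp only [s, V, if_neg hn, if_pos hn1, sl_emb, mk2_compl]
    congr 1
  -- spanning when labelled, independent when not labelled
  have hSpn : ∀ n, t n → (Ln L n).Spn (mk2 (V n) (V (n + 1))ᶜ) := by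
    intro n ht
    by_cases hn : Even n
    · simp only [t, if_pos hn] at ht
      rw [← hVe n hn]
      exact ht.mono (fun b hb => Or.inl hb)
    · rw [← hVo n hn]
      exact hNJ' n hn
  have hInd : ∀ n, ¬ t n → (Ln L n).Ind (mk2 (V n) (V (n + 1))ᶜ) := by
    intro n ht
    by_cases hn : Even n
    · rw [← hVe n hn]
      exact hMJ' n hn
    · simp only [t, if_neg hn, not_not] at ht
      rw [← hVo n hn]
      exact ht.mono (compl_subset_compl.2 fun b hb => Or.inr hb)
  -- consequences of a spanning slice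
  have key_even : ∀ n, Even n → (Ln L n).Spn (s n J₁) → ∀ b, emb n b ∉ J₂ := by
    intro n hn hsp b hb
    have h1 : s n J₁ = s n (J₁ ∪ J₂) :=
      USys.Ind.eq_of_spn (hMJ' n hn) hsp (fun b hb => Or.inl hb)
    have h2 : b ∈ s n (J₁ ∪ J₂) := Or.inr hb
    rw [← h1] at h2
    exact hdisj.le_bot ⟨h2, hb⟩
  have key_odd : ∀ n, ¬ Even n → (Ln L n).Ind (s n J₂)ᶜ → ∀ b, emb n b ∉ J₁ := by
    intro n hn hsp b hb
    have h1 : (s n (J₁ ∪ J₂))ᶜ = (s n J₂)ᶜ :=
      USys.Ind.eq_of_spn hsp (hNJ' n hn) (compl_subset_compl.2 fun b hb => Or.inr hb)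
    have h1' : s n (J₁ ∪ J₂) = s n J₂ := compl_injective h1
    have h2 : b ∈ s n (J₁ ∪ J₂) := Or.inl hb
    rw [h1'] at h2
    exact hdisj.le_bot ⟨hb, h2⟩
  have hall : ∀ e : ℤ × ℕ, e ∈ (MM L).closure J₁ ∨ e ∈ (NN L).closure J₂ := by
    intro e
    have : e ∈ (MM L).closure J₁ ∪ (NN L).closure J₂ := by
      rw [hcl]; exact mem_univ e
    exact this
  have embr : ∀ (n : ℤ) (x : ℕ), emb n (Sum.inr x) = (n + 1, x) := fun n x => rfl
  have embl : ∀ (n : ℤ) (x : ℕ), emb n (Sum.inl x) = (n, x) := fun n x => rfl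
  -- if neither neighbouring slice is spanning, everything is in `J`
  have full : ∀ n : ℤ, ((Even n ∧ ¬ (Ln L n).Spn (s n J₁) ∧ ¬ (Ln L (n + 1)).Ind (s (n + 1) J₂)ᶜ) ∨
      (¬ Even n ∧ ¬ (Ln L n).Ind (s n J₂)ᶜ ∧ ¬ (Ln L (n + 1)).Spn (s (n + 1) J₁))) →
      ∀ x, (n + 1, x) ∈ J₁ ∪ J₂ := by
    intro n h x
    rcases h with ⟨hn, h1, h2⟩ | ⟨hn, h1, h2⟩
    · have hn1 : ¬ Even (n + 1) := by rw [Int.even_add_one]; simpa using hn
      rcases hall (n + 1, x) with h | h
      · rcases hclM n (Sum.inr x) hn (by rw [embr]; exact h) with h' | h'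
        · rw [embr] at h'; exact Or.inl h'
        · exact absurd h' h1
      · rcases hclN (n + 1) (Sum.inl x) hn1 (by rw [embl]; exact h) with h' | h'
        · rw [embl] at h'; exact Or.inr h'
        · exact absurd h' h2
    · have hn1 : Even (n + 1) := by rw [Int.even_add_one]; exact hn
      rcases hall (n + 1, x) with h | h
      · rcases hclM (n + 1) (Sum.inl x) hn1 (by rw [embl]; exact h) with h' | h'
        · rw [embl] at h'; exact Or.inl h'
        · exact absurd h' h2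
      · rcases hclN n (Sum.inr x) hn (by rw [embr]; exact h) with h' | h'
        · rw [embr] at h'; exact Or.inr h'
        · exact absurd h' h1
  -- if both are, nothing is
  have empt : ∀ n : ℤ, ((Even n ∧ (Ln L n).Spn (s n J₁) ∧ (Ln L (n + 1)).Ind (s (n + 1) J₂)ᶜ) ∨
      (¬ Even n ∧ (Ln L n).Ind (s n J₂)ᶜ ∧ (Ln L (n + 1)).Spn (s (n + 1) J₁))) →
      ∀ x, (n + 1, x) ∉ J₁ ∪ J₂ := by
    intro n h x hx
    rcases h with ⟨hn, h1, h2⟩ | ⟨hn, h1, h2⟩
    · have hn1 : ¬ Even (n + 1) := by rw [Int.even_add_one]; simpa using hn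
      rcases hx with hx | hx
      · exact key_odd (n + 1) hn1 h2 (Sum.inl x) (by rw [embl]; exact hx)
      · exact key_even n hn h1 (Sum.inr x) (by rw [embr]; exact hx)
    · have hn1 : Even (n + 1) := by rw [Int.even_add_one]; exact hn
      rcases hx with hx | hx
      · exact key_odd n hn h1 (Sum.inr x) (by rw [embr]; exact hx)
      · exact key_even (n + 1) hn1 h2 (Sum.inl x) (by rw [embl]; exact hx)
  refine two_sided F1 F2 F3 V t ?_ ?_ ?_ ?_ ?_ ?_
  · intro n hn ht
    exact (Ln_spn_nonneg hn).1 (hSpn n ht)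
  · intro n hn ht
    exact (Ln_ind_nonneg hn).1 (hInd n ht)
  · intro n hn ht
    exact (Ln_spn_neg hn).1 (hSpn n ht)
  · intro n hn ht
    exact (Ln_ind_neg hn).1 (hInd n ht)
  · intro n h1 h2
    by_cases hn : Even n
    · have hn1 : ¬ Even (n + 1) := by rw [Int.even_add_one]; simpa using hn
      simp only [t, if_pos hn] at h1
      simp only [t, if_neg hn1] at h2
      have := full n (Or.inl ⟨hn, h1, h2⟩)
      simp only [V, if_neg hn1]
      ext x
      simp only [mem_ofPred_eq, mem_empty_iff_false, iff_false, not_not]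
      exact this x
    · have hn1 : Even (n + 1) := by rw [Int.even_add_one]; exact hn
      simp only [t, if_neg hn, not_not] at h1
      simp only [t, if_pos hn1] at h2
      have := empt n (Or.inr ⟨hn, h1, h2⟩)
      simp only [V, if_pos hn1]
      ext x
      simp only [mem_ofPred_eq, mem_empty_iff_false, iff_false]
      exact this x
  · intro n h1 h2
    by_cases hn : Even n
    · have hn1 : ¬ Even (n + 1) := by rw [Int.even_add_one]; simpa using hn
      simp only [t, if_pos hn] at h1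
      simp only [t, if_neg hn1, not_not] at h2
      have := empt n (Or.inl ⟨hn, h1, h2⟩)
      simp only [V, if_neg hn1]
      ext x
      simp only [mem_ofPred_eq, mem_univ, iff_true]
      exact this x
    · have hn1 : Even (n + 1) := by rw [Int.even_add_one]; exact hn
      simp only [t, if_neg hn] at h1
      simp only [t, if_pos hn1] at h2
      have := full n (Or.inr ⟨hn, h1, h2⟩)
      simp only [V, if_pos hn1]
      ext x
      simp only [mem_ofPred_eq, mem_univ, iff_true]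
      exact this x

/-- The counterexample, under `𝔯 = 𝔠`. -/
theorem counterexample (h : SplitHyp) : ∃ M N : Matroid (ℤ × ℕ), M.E = univ ∧ N.E = univ ∧
    IsUniformSum M ∧ IsUniformSum N ∧
    ¬ SatisfiesIntersection M N ∧ ¬ HasPackingCovering (fun b : Bool => cond b M N✶) univ := by
  obtain ⟨L, F1, F2, F3⟩ := exists_L h
  have h1 := not_intersection F1 F2 F3
  exact ⟨MM L, NN L, rfl, rfl, blockMatroid_isUniformSum, blockMatroid_isUniformSum, h1,
    fun h => h1 (intersection_of_packingCovering rfl rfl h)⟩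

end Vale.Agent.P068
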