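import Mathlib

/-!
Balanced finite modifications of sets, and interpolation between sets.
-/

namespace Vale.Agent.P068

open Set

variable {Ω : Type*}

/-- `A` and `B` differ by finite sets of the same size on both sides. -/
def Bal (A B : Set Ω) : Prop :=
  (A \ B).Finite ∧ (B \ A).Finite ∧ (A \ B).ncard = (B \ A).ncard

theorem Bal.refl (A : Set Ω) : Bal A A := by simp [Bal]

theorem Bal.symm {A B : Set Ω} (h : Bal A B) : Bal B A := ⟨h.2.1, h.1, h.2.2.symm⟩

/-- Counting on a finite window. -/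
theorem ncard_window {A B F : Set Ω} (hF : F.Finite) (h1 : A \ B ⊆ F) :
    (A ∩ F).ncard = (A \ B).ncard + (A ∩ B ∩ F).ncard := by
  have h : A ∩ F = (A \ B) ∪ (A ∩ B ∩ F) := by
    ext x
    constructor
    · rintro ⟨ha, hf⟩
      by_cases hb : x ∈ B
      · exact Or.inr ⟨⟨ha, hb⟩, hf⟩
      · exact Or.inl ⟨ha, hb⟩
    · rintro (⟨ha, hb⟩ | ⟨⟨ha, hb⟩, hf⟩)
      · exact ⟨ha, h1 ⟨ha, hb⟩⟩
      · exact ⟨ha, hf⟩
  rw [h, Set.ncard_union_eq ?_ (hF.subset h1) (hF.subset inter_subset_right)]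
  rw [Set.disjoint_left]
  rintro x ⟨_, hb⟩ ⟨⟨_, hb'⟩, _⟩
  exact hb hb'

theorem bal_iff_window {A B F : Set Ω} (hF : F.Finite) (h1 : A \ B ⊆ F) (h2 : B \ A ⊆ F) :
    Bal A B ↔ (A ∩ F).ncard = (B ∩ F).ncard := by
  have e1 := ncard_window hF h1
  have e2 := ncard_window hF h2
  rw [inter_comm B A] at e2
  constructor
  · rintro ⟨-, -, h⟩; omega
  · intro h
    exact ⟨hF.subset h1, hF.subset h2, by omega⟩

theorem Bal.trans {A B C : Set Ω} (hAB : Bal A B) (hBC : Bal B C) : Bal A C := by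
  have hF : ((A \ B) ∪ (B \ A) ∪ (B \ C) ∪ (C \ B)).Finite :=
    ((hAB.1.union hAB.2.1).union hBC.1).union hBC.2.1
  set F := (A \ B) ∪ (B \ A) ∪ (B \ C) ∪ (C \ B) with hFdef
  have e1 := (bal_iff_window hF (A := A) (B := B)
    (fun x hx => Or.inl (Or.inl (Or.inl hx))) (fun x hx => Or.inl (Or.inl (Or.inr hx)))).1 hAB
  have e2 := (bal_iff_window hF (A := B) (B := C)
    (fun x hx => Or.inl (Or.inr hx)) (fun x hx => Or.inr hx)).1 hBC
  refine (bal_iff_window hF ?_ ?_).2 (e1.trans e2)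
  · rintro x ⟨hxA, hxC⟩
    by_cases hB : x ∈ B
    · exact Or.inl (Or.inr ⟨hB, hxC⟩)
    · exact Or.inl (Or.inl (Or.inl ⟨hxA, hB⟩))
  · rintro x ⟨hxC, hxA⟩
    by_cases hB : x ∈ B
    · exact Or.inl (Or.inl (Or.inr ⟨hB, hxA⟩))
    · exact Or.inr ⟨hxC, hB⟩

theorem Bal.eq_of_subset {A B : Set Ω} (h : Bal A B) (hAB : A ⊆ B) : A = B := by
  have h0 : A \ B = ∅ := Set.sdiff_eq_empty.2 hAB
  have h1 : (B \ A).ncard = 0 := by rw [← h.2.2, h0, Set.ncard_empty]
  have h2 : B \ A = ∅ := (Set.ncard_eq_zero h.2.1).1 h1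
  exact hAB.antisymm (Set.sdiff_eq_empty.1 h2)

/-- Exchanging one element keeps a set balanced. -/
theorem bal_exchange {B : Set Ω} {x y : Ω} (hx : x ∈ B) (hy : y ∉ B) :
    Bal (insert y (B \ {x})) B := by
  have hxy : x ≠ y := fun h => hy (h ▸ hx)
  have h1 : insert y (B \ {x}) \ B = {y} := by
    ext z
    simp only [mem_sdiff, mem_insert_iff, mem_singleton_iff]
    constructor
    · rintro ⟨rfl | h, h'⟩
      · rfl
      · exact absurd h.1 h'
    · rintro rfl
      exact ⟨Or.inl rfl, hy⟩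
  have h2 : B \ insert y (B \ {x}) = {x} := by
    ext z
    simp only [mem_sdiff, mem_insert_iff, mem_singleton_iff, not_or, not_and, not_not]
    constructor
    · rintro ⟨h, h', h''⟩
      exact h'' h
    · rintro rfl
      exact ⟨hx, hxy, fun _ => rfl⟩
  refine ⟨?_, ?_, ?_⟩
  · rw [h1]; exact finite_singleton _
  · rw [h2]; exact finite_singleton _
  · rw [h1, h2, ncard_singleton, ncard_singleton]

/-- Interpolation: between `P ⊆ Q` there is a balanced modification of `c`. -/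
theorem exists_bal_between {P Q c : Set Ω} (hPQ : P ⊆ Q) (hP : (P \ c).Finite)
    (hQ : (c \ Q).Finite)
    (h1 : (c \ P).Finite → (P \ c).ncard ≤ (c \ P).ncard)
    (h2 : (Q \ c).Finite → (c \ Q).ncard ≤ (Q \ c).ncard) :
    ∃ B, Bal B c ∧ P ⊆ B ∧ B ⊆ Q := by
  classical
  rcases le_total (c \ Q).ncard (P \ c).ncard with hle | hle
  · -- remove elements from `(c ∩ Q) \ P`
    obtain ⟨R, hR1, hR2, hR3⟩ : ∃ R : Set Ω, R ⊆ (c ∩ Q) \ P ∧ R.Finite ∧
        R.ncard = (P \ c).ncard - (c \ Q).ncard := by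
      by_cases hfin : ((c ∩ Q) \ P).Finite
      · have e1 : c \ P = ((c ∩ Q) \ P) ∪ (c \ Q) := by
          ext x
          simp only [mem_sdiff, mem_union, mem_inter_iff]
          constructor
          · rintro ⟨hc, hp⟩
            by_cases hq : x ∈ Q
            · exact Or.inl ⟨⟨hc, hq⟩, hp⟩
            · exact Or.inr ⟨hc, hq⟩
          · rintro (⟨⟨hc, hq⟩, hp⟩ | ⟨hc, hq⟩)
            · exact ⟨hc, hp⟩
            · exact ⟨hc, fun h => hq (hPQ h)⟩
        have hcP : (c \ P).Finite := by rw [e1]; exact hfin.union hQ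
        have e2 : (c \ P).ncard = ((c ∩ Q) \ P).ncard + (c \ Q).ncard := by
          rw [e1, Set.ncard_union_eq ?_ hfin hQ]
          rw [Set.disjoint_left]
          rintro x ⟨⟨_, hq⟩, _⟩ ⟨_, hq'⟩
          exact hq' hq
        have e3 := h1 hcP
        obtain ⟨R, hR, hRc⟩ := Set.exists_subset_card_eq (s := (c ∩ Q) \ P)
          (n := (P \ c).ncard - (c \ Q).ncard) (by omega)
        exact ⟨R, hR, hfin.subset hR, hRc⟩
      · obtain ⟨R, hR, hRf, hRc⟩ := Set.Infinite.exists_subset_ncard_eq hfin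
          ((P \ c).ncard - (c \ Q).ncard)
        exact ⟨R, hR, hRf, hRc⟩
    refine ⟨(P ∪ (c ∩ Q)) \ R, ?_, ?_, ?_⟩
    · have e1 : ((P ∪ (c ∩ Q)) \ R) \ c = P \ c := by
        ext x
        simp only [mem_sdiff, mem_union, mem_inter_iff]
        constructor
        · rintro ⟨⟨hp | hc, _⟩, hnc⟩
          · exact ⟨hp, hnc⟩
          · exact absurd hc.1 hnc
        · rintro ⟨hp, hnc⟩
          exact ⟨⟨Or.inl hp, fun hR => (hR1 hR).2 hp⟩, hnc⟩
      have e2 : c \ ((P ∪ (c ∩ Q)) \ R) = (c \ Q) ∪ R := by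
        ext x
        simp only [mem_sdiff, mem_union, mem_inter_iff, not_and, not_not]
        constructor
        · rintro ⟨hc, h⟩
          by_cases hq : x ∈ Q
          · exact Or.inr (h (Or.inr ⟨hc, hq⟩))
          · exact Or.inl ⟨hc, hq⟩
        · rintro (⟨hc, hq⟩ | hR)
          · refine ⟨hc, ?_⟩
            rintro (hp | hcq)
            · exact absurd (hPQ hp) hq
            · exact absurd hcq.2 hq
          · exact ⟨(hR1 hR).1.1, fun _ => hR⟩
      refine ⟨?_, ?_, ?_⟩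
      · rw [e1]; exact hP
      · rw [e2]; exact hQ.union hR2
      · rw [e1, e2, Set.ncard_union_eq ?_ hQ hR2, hR3]
        · omega
        · rw [Set.disjoint_left]
          rintro x ⟨_, hq⟩ hR
          exact hq (hR1 hR).1.2
    · intro x hx
      exact ⟨Or.inl hx, fun hR => (hR1 hR).2 hx⟩
    · rintro x ⟨hp | hc, _⟩
      · exact hPQ hp
      · exact hc.2
  · -- add elements from `Q \ (P ∪ c)`
    obtain ⟨R, hR1, hR2, hR3⟩ : ∃ R : Set Ω, R ⊆ Q \ (P ∪ c) ∧ R.Finite ∧
        R.ncard = (c \ Q).ncard - (P \ c).ncard := by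
      by_cases hfin : (Q \ (P ∪ c)).Finite
      · have e1 : Q \ c = (P \ c) ∪ (Q \ (P ∪ c)) := by
          ext x
          simp only [mem_sdiff, mem_union, not_or]
          constructor
          · rintro ⟨hq, hc⟩
            by_cases hp : x ∈ P
            · exact Or.inl ⟨hp, hc⟩
            · exact Or.inr ⟨hq, hp, hc⟩
          · rintro (⟨hp, hc⟩ | ⟨hq, _, hc⟩)
            · exact ⟨hPQ hp, hc⟩
            · exact ⟨hq, hc⟩
        have hQc : (Q \ c).Finite := by rw [e1]; exact hP.union hfin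
        have e2 : (Q \ c).ncard = (P \ c).ncard + (Q \ (P ∪ c)).ncard := by
          rw [e1, Set.ncard_union_eq ?_ hP hfin]
          rw [Set.disjoint_left]
          rintro x ⟨hp, _⟩ ⟨_, hn⟩
          exact hn (Or.inl hp)
        have e3 := h2 hQc
        obtain ⟨R, hR, hRc⟩ := Set.exists_subset_card_eq (s := Q \ (P ∪ c))
          (n := (c \ Q).ncard - (P \ c).ncard) (by omega)
        exact ⟨R, hR, hfin.subset hR, hRc⟩
      · obtain ⟨R, hR, hRf, hRc⟩ := Set.Infinite.exists_subset_ncard_eq hfin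
          ((c \ Q).ncard - (P \ c).ncard)
        exact ⟨R, hR, hRf, hRc⟩
    refine ⟨P ∪ (c ∩ Q) ∪ R, ?_, ?_, ?_⟩
    · have e1 : (P ∪ (c ∩ Q) ∪ R) \ c = (P \ c) ∪ R := by
        ext x
        simp only [mem_sdiff, mem_union, mem_inter_iff]
        constructor
        · rintro ⟨(hp | hc) | hR, hnc⟩
          · exact Or.inl ⟨hp, hnc⟩
          · exact absurd hc.1 hnc
          · exact Or.inr hR
        · rintro (⟨hp, hnc⟩ | hR)
          · exact ⟨Or.inl (Or.inl hp), hnc⟩
          · exact ⟨Or.inr hR, fun hc => (hR1 hR).2 (Or.inr hc)⟩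
      have e2 : c \ (P ∪ (c ∩ Q) ∪ R) = c \ Q := by
        ext x
        simp only [mem_sdiff, mem_union, mem_inter_iff, not_or, not_and]
        constructor
        · rintro ⟨hc, ⟨_, h⟩, _⟩
          exact ⟨hc, h hc⟩
        · rintro ⟨hc, hq⟩
          exact ⟨hc, ⟨fun hp => hq (hPQ hp), fun _ => hq⟩, fun hR => hq (hR1 hR).1⟩
      refine ⟨?_, ?_, ?_⟩
      · rw [e1]; exact hP.union hR2
      · rw [e2]; exact hQ
      · rw [e1, e2, Set.ncard_union_eq ?_ hP hR2, hR3]
        · omega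
        · rw [Set.disjoint_left]
          rintro x ⟨hp, _⟩ hR
          exact (hR1 hR).2 (Or.inl hp)
    · intro x hx
      exact Or.inl (Or.inl hx)
    · rintro x ((hp | hc) | hR)
      · exact hPQ hp
      · exact hc.2
      · exact (hR1 hR).1

end Vale.Agent.P068
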