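import Vale.Agent.P068_h2.System

/-!
The special uniform system `L` and the combinatorial contradiction along a double ray.
-/

namespace Vale.Agent.P068

open Set

/-- The uniform system with a well-founded transfer relation. -/
theorem exists_L (h : SplitHyp) : ∃ L : USys (ℕ ⊕ ℕ),
    (∀ V V' : Set ℕ, V.Infinite → L.Ind (mk2 V V'ᶜ) → V'.Infinite) ∧
    (∀ V V' : Set ℕ, V.Finite → L.Spn (mk2 V V'ᶜ) → V'.Finite ∧ V'.ncard < V.ncard) ∧
    (∀ W : ℕ → Set ℕ, (∀ m, (W m).Infinite) → (∀ m, L.Ind (mk2 (W m) (W (m + 1))ᶜ)) → False) := by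
  obtain ⟨C, hinf, hanti, hrank, hcomp⟩ := exists_family h
  refine ⟨mkSys hinf hanti hcomp, ?_, ?_, ?_⟩
  · rintro V V' hV ⟨B, ⟨c, hc, hBc⟩, hB⟩
    have hle : LeF (mk2 V V'ᶜ) c := (leF_of_subset hB).trans hBc.1
    rcases hc with rfl | ⟨d, hd, rfl⟩
    · exfalso
      apply hV
      have := (leF_mk2.1 hle).1
      refine (this.union (finite_singleton 0)).subset ?_
      intro x hx
      by_cases h0 : x = 0
      · exact Or.inr h0
      · exact Or.inl ⟨hx, h0⟩
    · have h2 := (leF_mk2.1 hle).2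
      intro hfin
      apply (hinf d hd).2
      refine (hfin.union h2).subset ?_
      intro x hx
      by_cases h0 : x ∈ V'
      · exact Or.inl h0
      · exact Or.inr ⟨h0, hx⟩
  · rintro V V' hV ⟨B, ⟨c, hc, hBc⟩, hB⟩
    have hle : LeF c (mk2 V V'ᶜ) := LeF.trans hBc.2.1 (leF_of_subset hB)
    rcases hc with rfl | ⟨d, hd, rfl⟩
    · have hfin : V'.Finite := by
        have := (leF_mk2.1 hle).2
        simpa [sdiff_compl] using this
      refine ⟨hfin, ?_⟩
      set BV := Sum.inl ⁻¹' B with hBV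
      set BY := Sum.inr ⁻¹' B with hBY
      have eB : B = mk2 BV BY := eq_mk2 B
      rw [eB] at hBc hB
      obtain ⟨hsub1, hsub2⟩ := mk2_subset.1 hB
      have hBVf : BV.Finite := hV.subset hsub1
      have hBYf : (BYᶜ).Finite := by
        have h3 := hBc.2.1
        unfold spec at h3
        rw [mk2_diff] at h3
        simpa [compl_eq_univ_sdiff] using (mk2_finite.1 h3).2
      have hcount := hBc.2.2
      unfold spec at hcount
      rw [mk2_diff, mk2_diff, mk2_ncard (hBVf.subset sdiff_subset) (by simp),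
        mk2_ncard ((finite_singleton 0).subset sdiff_subset)
          (by simpa [compl_eq_univ_sdiff] using hBYf)] at hcount
      simp only [Set.sdiff_univ, Set.ncard_empty, add_zero] at hcount
      rw [← compl_eq_univ_sdiff] at hcount
      have e1 : (BV \ {0}).ncard + (BV ∩ {0}).ncard = BV.ncard := by
        have := Set.ncard_inter_add_ncard_sdiff_eq_ncard BV {0} hBVf
        omega
      have e2 : (({0} : Set ℕ) \ BV).ncard + (BV ∩ {0}).ncard = 1 := by
        have := Set.ncard_inter_add_ncard_sdiff_eq_ncard ({0} : Set ℕ) BV (finite_singleton 0)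
        rw [Set.ncard_singleton, inter_comm] at this
        omega
      have e3 : V'.ncard ≤ (BYᶜ).ncard := by
        refine Set.ncard_le_ncard ?_ hBYf
        intro x hx hxB
        exact hsub2 hxB hx
      have e4 : BV.ncard ≤ V.ncard := Set.ncard_le_ncard hsub1 hV
      omega
    · exfalso
      apply (hinf d hd).1
      have := (leF_mk2.1 hle).1
      refine (hV.union this).subset ?_
      intro x hx
      by_cases h0 : x ∈ V
      · exact Or.inl h0
      · exact Or.inr ⟨hx, h0⟩
  · intro W hW hI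
    have hd : ∀ m, ∃ d ∈ C, (W m \ d.V).Finite ∧ ((W (m + 1))ᶜ \ d.Y).Finite := by
      intro m
      obtain ⟨B, ⟨c, hc, hBc⟩, hB⟩ := hI m
      have hle : LeF (mk2 (W m) (W (m + 1))ᶜ) c := (leF_of_subset hB).trans hBc.1
      rcases hc with rfl | ⟨d, hd, rfl⟩
      · exfalso
        apply hW m
        have := (leF_mk2.1 hle).1
        refine (this.union (finite_singleton 0)).subset ?_
        intro x hx
        by_cases h0 : x = 0
        · exact Or.inr h0
        · exact Or.inl ⟨hx, h0⟩
      · exact ⟨d, hd, leF_mk2.1 hle⟩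
    choose d hdC hd1 hd2 using hd
    have hdec : ∀ m, (d (m + 1)).r < (d m).r := by
      intro m
      apply hrank _ (hdC m) _ (hdC (m + 1))
      refine ((hd2 m).union (hd1 (m + 1))).subset ?_
      intro x hx
      simp only [mem_compl_iff, mem_union, not_or] at hx
      by_cases h0 : x ∈ W (m + 1)
      · exact Or.inr ⟨h0, hx.2⟩
      · exact Or.inl ⟨h0, hx.1⟩
    exact (wellFounded_iff_isEmpty_descending_chain.1 (wellFounded_lt (α := Idx))).false
      ⟨fun m => (d m).r, hdec⟩

section ray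

variable {L : USys (ℕ ⊕ ℕ)}
  (F1 : ∀ V V' : Set ℕ, V.Infinite → L.Ind (mk2 V V'ᶜ) → V'.Infinite)
  (F2 : ∀ V V' : Set ℕ, V.Finite → L.Spn (mk2 V V'ᶜ) → V'.Finite ∧ V'.ncard < V.ncard)
  (F3 : ∀ W : ℕ → Set ℕ, (∀ m, (W m).Infinite) → (∀ m, L.Ind (mk2 (W m) (W (m + 1))ᶜ)) → False)

include F1 F2 F3 in
theorem one_sided (W : ℕ → Set ℕ) (t : ℕ → Prop)
    (hS : ∀ m, t m → L.Spn (mk2 (W m) (W (m + 1))ᶜ))
    (hI : ∀ m, ¬ t m → L.Ind (mk2 (W m) (W (m + 1))ᶜ))
    (a1 : ∀ m, ¬ t m → t (m + 1) → W (m + 1) = ∅)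
    (a2 : ∀ m, t m → ¬ t (m + 1) → W (m + 1) = univ) :
    (t 0 → (W 0).Infinite) ∧ (¬ t 0 → (W 0).Finite) := by
  constructor
  · intro h0 hfin
    have key : ∀ k m, t m → (W m).Finite → (W m).ncard ≤ k → False := by
      intro k
      induction k with
      | zero =>
        intro m hm hf hk
        have := (F2 _ _ hf (hS m hm)).2
        omega
      | succ k ih =>
        intro m hm hf hk
        obtain ⟨h1, h2⟩ := F2 _ _ hf (hS m hm)
        by_cases ht : t (m + 1)
        · exact ih (m + 1) ht h1 (by omega)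
        · have := a2 m hm ht
          rw [this] at h1
          exact Set.infinite_univ h1
    exact key _ 0 h0 hfin le_rfl
  · intro h0
    by_contra hinf
    have key : ∀ m, ¬ t m ∧ (W m).Infinite := by
      intro m
      induction m with
      | zero => exact ⟨h0, hinf⟩
      | succ m ih =>
        have h1 := F1 _ _ ih.2 (hI m ih.1)
        refine ⟨fun ht => ?_, h1⟩
        have := a1 m ih.1 ht
        rw [this] at h1
        exact h1 finite_empty
    exact F3 W (fun m => (key m).2) (fun m => hI m (key m).1)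

include F1 F2 F3 in
/-- The contradiction along the double ray. -/
theorem two_sided (V : ℤ → Set ℕ) (s : ℤ → Prop)
    (hS : ∀ n : ℤ, 0 ≤ n → s n → L.Spn (mk2 (V n) (V (n + 1))ᶜ))
    (hI : ∀ n : ℤ, 0 ≤ n → ¬ s n → L.Ind (mk2 (V n) (V (n + 1))ᶜ))
    (hS' : ∀ n : ℤ, n < 0 → s n → L.Ind (mk2 (V (n + 1)) (V n)ᶜ))
    (hI' : ∀ n : ℤ, n < 0 → ¬ s n → L.Spn (mk2 (V (n + 1)) (V n)ᶜ))
    (a1 : ∀ n : ℤ, ¬ s n → s (n + 1) → V (n + 1) = ∅)
    (a2 : ∀ n : ℤ, s n → ¬ s (n + 1) → V (n + 1) = univ) : False := by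
  have right := one_sided F1 F2 F3 (fun m : ℕ => V m) (fun m : ℕ => s m)
    (fun m hm => by have := hS m (by positivity) hm; exact_mod_cast this)
    (fun m hm => by have := hI m (by positivity) hm; exact_mod_cast this)
    (fun m h1 h2 => by
      have := a1 m h1 (by exact_mod_cast h2)
      exact_mod_cast this)
    (fun m h1 h2 => by
      have := a2 m h1 (by exact_mod_cast h2)
      exact_mod_cast this)
  have left := one_sided F1 F2 F3 (fun m : ℕ => V (-(m : ℤ))) (fun m : ℕ => ¬ s (-(m : ℤ) - 1))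
    (fun m hm => by
      have := hI' (-(m : ℤ) - 1) (by omega) hm
      have e1 : (-(m : ℤ) - 1) + 1 = -(m : ℤ) := by ring
      have e2 : (-((m + 1 : ℕ) : ℤ)) = -(m : ℤ) - 1 := by push_cast; ring
      rw [e1] at this
      rw [e2]
      exact this)
    (fun m hm => by
      have := hS' (-(m : ℤ) - 1) (by omega) (not_not.1 hm)
      have e1 : (-(m : ℤ) - 1) + 1 = -(m : ℤ) := by ring
      have e2 : (-((m + 1 : ℕ) : ℤ)) = -(m : ℤ) - 1 := by push_cast; ring
      rw [e1] at this
      rw [e2]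
      exact this)
    (fun m h1 h2 => by
      have e2 : (-((m + 1 : ℕ) : ℤ)) = -(m : ℤ) - 1 := by push_cast; ring
      rw [e2] at h2 ⊢
      have e3 : (-(m : ℤ) - 1 - 1) + 1 = -(m : ℤ) - 1 := by ring
      have := a1 (-(m : ℤ) - 1 - 1) h2 (by rw [e3]; exact not_not.1 h1)
      rwa [e3] at this)
    (fun m h1 h2 => by
      have e2 : (-((m + 1 : ℕ) : ℤ)) = -(m : ℤ) - 1 := by push_cast; ring
      rw [e2] at h2 ⊢
      have e3 : (-(m : ℤ) - 1 - 1) + 1 = -(m : ℤ) - 1 := by ring
      have := a2 (-(m : ℤ) - 1 - 1) (not_not.1 h2) (by rw [e3]; exact h1)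
      rwa [e3] at this)
  simp only [Nat.cast_zero, neg_zero, zero_sub] at right left
  by_cases h0 : s 0
  · by_cases h1 : s (-1)
    · exact (right.1 h0) (left.2 (not_not.2 h1))
    · have := a1 (-1) h1 (by simpa using h0)
      have h3 := right.1 h0
      have e : (-1 : ℤ) + 1 = 0 := by norm_num
      rw [e] at this
      rw [this] at h3
      exact h3 finite_empty
  · by_cases h1 : s (-1)
    · have := a2 (-1) h1 (by simpa using h0)
      have h3 := right.2 h0
      have e : (-1 : ℤ) + 1 = 0 := by norm_num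
      rw [e] at this
      rw [this] at h3
      exact Set.infinite_univ h3
    · exact (left.1 h1) (right.2 h0)

end ray

end Vale.Agent.P068
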