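import Vale.Agent.P068_h2.Split

/-!
The transfinite recursion of length continuum producing a family of classes of bases together
with a rank function.
-/

namespace Vale.Agent.P068

open Set Cardinal

theorem add_lemma (h : SplitHyp) (C : Set (Set ℕ × Set ℕ)) (hC : #C < Cardinal.continuum)
    {PV PY QV QY : Set ℕ} (hV : PV ⊆ QV) (hY : PY ⊆ QY)
    (h1 : ∀ d ∈ C, ¬ ((d.1 \ PV).Finite ∧ (d.2 \ PY).Finite))
    (h2 : ∀ d ∈ C, ¬ ((QV \ d.1).Finite ∧ (QY \ d.2).Finite))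
    (h3 : QV.Infinite) (h4 : (PYᶜ).Infinite) (h5 : ((PY ∪ PV)ᶜ).Infinite) :
    ∃ V Y : Set ℕ, PV ⊆ V ∧ V ⊆ QV ∧ PY ⊆ Y ∧ Y ⊆ QY ∧ V.Infinite ∧ (Yᶜ).Infinite ∧
      ((Y ∪ V)ᶜ).Infinite ∧
      ∀ d ∈ C, ¬ ((d.1 \ V).Finite ∧ (d.2 \ Y).Finite) ∧
        ¬ ((V \ d.1).Finite ∧ (Y \ d.2).Finite) ∧
        (((d.2 ∪ PV)ᶜ).Infinite → ((d.2 ∪ V)ᶜ).Infinite) ∧
        (((PY ∪ d.1)ᶜ).Infinite → ((Y ∪ d.1)ᶜ).Infinite) := by
  classical
  have hcard : ∀ (A B : Set ℕ) (f₁ f₂ f₃ : Set ℕ × Set ℕ → Set ℕ),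
      #(↥(({A, B} : Set (Set ℕ)) ∪ f₁ '' C ∪ f₂ '' C ∪ f₃ '' C)) < Cardinal.continuum := by
    intro A B f₁ f₂ f₃
    have hadd : ∀ {S T : Set (Set ℕ)}, #S < Cardinal.continuum → #T < Cardinal.continuum →
        #(↥(S ∪ T)) < Cardinal.continuum := fun {S T} hS hT =>
      (Cardinal.mk_union_le S T).trans_lt
        (Cardinal.add_lt_of_lt Cardinal.aleph0_le_continuum hS hT)
    have him : ∀ f : Set ℕ × Set ℕ → Set ℕ, #(↥(f '' C)) < Cardinal.continuum := fun f =>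
      Cardinal.mk_image_le.trans_lt hC
    refine hadd (hadd (hadd ?_ (him _)) (him _)) (him _)
    exact ((Set.toFinite ({A, B} : Set (Set ℕ))).lt_aleph0).trans Cardinal.aleph0_lt_continuum
  obtain ⟨G, hGR, hG⟩ := h.rel (QV \ PV)
    (({Set.univ, (PY ∪ PV)ᶜ} : Set (Set ℕ)) ∪ (fun d => d.1 \ PV) '' C ∪ (fun d => (d.1)ᶜ) '' C ∪
      (fun d => (d.2 ∪ PV)ᶜ) '' C) (hcard _ _ _ _ _)
  set V : Set ℕ := PV ∪ G with hVdef
  obtain ⟨H, hHR, hH⟩ := h.rel (QY \ PY)
    (({PYᶜ, (PY ∪ V)ᶜ} : Set (Set ℕ)) ∪ (fun d => d.2 \ PY) '' C ∪ (fun d => (d.2)ᶜ) '' C ∪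
      (fun d => (PY ∪ d.1)ᶜ) '' C) (hcard _ _ _ _ _)
  set Y : Set ℕ := PY ∪ H with hYdef
  -- memberships
  have g0 := hG Set.univ (by simp)
  have g1 := hG ((PY ∪ PV)ᶜ) (by simp)
  have g2 : ∀ d ∈ C, _ := fun d hd => hG (d.1 \ PV)
    (Or.inl (Or.inl (Or.inr ⟨d, hd, rfl⟩)))
  have g3 : ∀ d ∈ C, _ := fun d hd => hG ((d.1)ᶜ)
    (Or.inl (Or.inr ⟨d, hd, rfl⟩))
  have g4 : ∀ d ∈ C, _ := fun d hd => hG ((d.2 ∪ PV)ᶜ)
    (Or.inr ⟨d, hd, rfl⟩)
  have k0 := hH (PYᶜ) (by simp)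
  have k1 := hH ((PY ∪ V)ᶜ) (by simp)
  have k2 : ∀ d ∈ C, _ := fun d hd => hH (d.2 \ PY)
    (Or.inl (Or.inl (Or.inr ⟨d, hd, rfl⟩)))
  have k3 : ∀ d ∈ C, _ := fun d hd => hH ((d.2)ᶜ)
    (Or.inl (Or.inr ⟨d, hd, rfl⟩))
  have k4 : ∀ d ∈ C, _ := fun d hd => hH ((PY ∪ d.1)ᶜ)
    (Or.inr ⟨d, hd, rfl⟩)
  have hYV : ((PY ∪ V)ᶜ).Infinite := by
    refine (g1.1 h5).mono ?_
    intro x hx
    simp only [hVdef, mem_sdiff, mem_compl_iff, mem_union, not_or] at hx ⊢
    tauto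
  refine ⟨V, Y, subset_union_left, ?_, subset_union_left, ?_, ?_, ?_, ?_, ?_⟩
  · exact union_subset hV (hGR.trans sdiff_subset)
  · exact union_subset hY (hHR.trans sdiff_subset)
  · by_cases hPV : PV.Infinite
    · exact hPV.mono subset_union_left
    · have : (QV \ PV).Infinite := h3.sdiff (not_infinite.1 hPV)
      have h6 := g0.2 (by simpa using this)
      exact h6.mono fun x hx => Or.inr hx.2
  · refine (k0.1 h4).mono ?_
    intro x hx
    simp only [hYdef, mem_sdiff, mem_compl_iff, mem_union, not_or] at hx ⊢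
    tauto
  · refine (k1.1 hYV).mono ?_
    intro x hx
    simp only [hYdef, mem_sdiff, mem_compl_iff, mem_union, not_or] at hx ⊢
    tauto
  · intro d hd
    refine ⟨?_, ?_, ?_, ?_⟩
    · rintro ⟨hf1, hf2⟩
      rcases not_and_or.1 (h1 d hd) with hinf | hinf
      · refine ((g2 d hd).1 hinf) (hf1.subset ?_)
        intro x hx
        simp only [hVdef, mem_sdiff, mem_union, not_or] at hx ⊢
        tauto
      · refine ((k2 d hd).1 hinf) (hf2.subset ?_)
        intro x hx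
        simp only [hYdef, mem_sdiff, mem_union, not_or] at hx ⊢
        tauto
    · rintro ⟨hf1, hf2⟩
      rcases not_and_or.1 (h2 d hd) with hinf | hinf
      · have hR : ((d.1)ᶜ ∩ (QV \ PV)).Infinite := by
          intro hfin
          apply hinf
          refine (hf1.union hfin).subset ?_
          intro x hx
          by_cases hxP : x ∈ PV
          · exact Or.inl ⟨Or.inl hxP, hx.2⟩
          · exact Or.inr ⟨hx.2, hx.1, hxP⟩
        refine ((g3 d hd).2 hR) (hf1.subset ?_)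
        intro x hx
        exact ⟨Or.inr hx.2, hx.1⟩
      · have hR : ((d.2)ᶜ ∩ (QY \ PY)).Infinite := by
          intro hfin
          apply hinf
          refine (hf2.union hfin).subset ?_
          intro x hx
          by_cases hxP : x ∈ PY
          · exact Or.inl ⟨Or.inl hxP, hx.2⟩
          · exact Or.inr ⟨hx.2, hx.1, hxP⟩
        refine ((k3 d hd).2 hR) (hf2.subset ?_)
        intro x hx
        exact ⟨Or.inr hx.2, hx.1⟩
    · intro hinf
      refine ((g4 d hd).1 hinf).mono ?_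
      intro x hx
      simp only [hVdef, mem_sdiff, mem_compl_iff, mem_union, not_or] at hx ⊢
      tauto
    · intro hinf
      refine ((k4 d hd).1 hinf).mono ?_
      intro x hx
      simp only [hYdef, mem_sdiff, mem_compl_iff, mem_union, not_or] at hx ⊢
      tauto

/-- The index type: the initial ordinal of the continuum. -/
abbrev Idx : Type := (Cardinal.continuum.{0}).ord.ToType

/-- A class of bases (given by a representative `(V, Y)`) with a rank. -/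
structure Cls where
  V : Set ℕ
  Y : Set ℕ
  r : Idx

/-- Inclusion modulo finite sets. -/
def Cls.le (c : Set ℕ × Set ℕ) (d : Set ℕ × Set ℕ) : Prop :=
  (c.1 \ d.1).Finite ∧ (c.2 \ d.2).Finite

/-- `c` may be added to `C` between `P` and `Q` at stage `α`. -/
def Compat (C : Set Cls) (α : Idx) (t : (Set ℕ × Set ℕ) × (Set ℕ × Set ℕ)) (c : Cls) : Prop :=
  t.1.1 ⊆ c.V ∧ c.V ⊆ t.2.1 ∧ t.1.2 ⊆ c.Y ∧ c.Y ⊆ t.2.2 ∧ c.V.Infinite ∧ (c.Yᶜ).Infinite ∧
    ((c.Y ∪ c.V)ᶜ).Infinite ∧ c.r ≤ α ∧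
    ∀ d ∈ C, ¬ Cls.le (d.V, d.Y) (c.V, c.Y) ∧ ¬ Cls.le (c.V, c.Y) (d.V, d.Y) ∧
      (((d.Y ∪ c.V)ᶜ).Finite → c.r < d.r) ∧ (((c.Y ∪ d.V)ᶜ).Finite → d.r < c.r)

/-- Transfinite recursion. -/
theorem exists_stage (g : Idx → (Set ℕ × Set ℕ) × (Set ℕ × Set ℕ)) :
    ∃ F : Idx → Option Cls, ∀ α,
      (∀ c, F α = some c → Compat {d | ∃ β, β < α ∧ F β = some d} α (g α) c) ∧
      ((∃ c, Compat {d | ∃ β, β < α ∧ F β = some d} α (g α) c) → ∃ c, F α = some c) := by
  classical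
  let step : ∀ α : Idx, (∀ β : Idx, β < α → Option Cls) → Option Cls := fun α rec =>
    if h : ∃ c, Compat {d | ∃ β, ∃ hβ : β < α, rec β hβ = some d} α (g α) c then
      some h.choose else none
  let F : Idx → Option Cls := (wellFounded_lt (α := Idx)).fix step
  have hF : ∀ α, F α = step α (fun β _ => F β) := fun α =>
    (wellFounded_lt (α := Idx)).fix_eq step α
  refine ⟨F, fun α => ?_⟩
  have hset : {d | ∃ β, ∃ _ : β < α, F β = some d} = {d | ∃ β, β < α ∧ F β = some d} := by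
    ext d; simp
  constructor
  · intro c hc
    rw [hF α] at hc
    simp only [step] at hc
    split_ifs at hc with h
    rw [← hset]
    have := h.choose_spec
    simp only [Option.some.injEq] at hc
    rw [hc] at this
    exact this
  · intro h
    rw [← hset] at h
    refine ⟨h.choose, ?_⟩
    rw [hF α]
    simp only [step]
    rw [dif_pos h]

theorem exists_enum (T : Type) (hT : #T ≤ Cardinal.continuum.{0}) (hne : Nonempty T) :
    ∃ g : Idx → T, ∀ (t : T) (β : Idx), ∃ α, β < α ∧ g α = t := by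
  have hI : #Idx = Cardinal.continuum := Cardinal.mk_ord_toType _
  have h1 : #(T × Idx) = #Idx := by
    rw [Cardinal.mk_prod, Cardinal.lift_id, Cardinal.lift_id, hI]
    apply le_antisymm
    · calc #T * Cardinal.continuum ≤ Cardinal.continuum * Cardinal.continuum := by gcongr
        _ = Cardinal.continuum := Cardinal.continuum_mul_self
    · have : (1 : Cardinal) ≤ #T := Cardinal.one_le_iff_ne_zero.2 (Cardinal.mk_ne_zero_iff.2 hne)
      calc (Cardinal.continuum : Cardinal.{0}) = 1 * Cardinal.continuum := (one_mul _).symm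
        _ ≤ #T * Cardinal.continuum := by gcongr
  obtain ⟨e⟩ := Cardinal.eq.1 h1.symm
  refine ⟨fun α => (e α).1, fun t β => ?_⟩
  by_contra hcon
  push Not at hcon
  have hsub : Set.range (fun j : Idx => e.symm (t, j)) ⊆ Set.Iic β := by
    rintro _ ⟨j, rfl⟩
    by_contra hlt
    exact hcon _ (not_le.1 hlt) (by simp)
  have hcard : #(Set.range (fun j : Idx => e.symm (t, j))) = Cardinal.continuum := by
    rw [Cardinal.mk_range_eq, hI]
    intro j j' h
    have := e.symm.injective h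
    exact (Prod.ext_iff.1 this).2
  have hle := Cardinal.mk_le_mk_of_subset hsub
  rw [hcard] at hle
  have hIio : #(Set.Iio β) < Cardinal.continuum := by
    have := Cardinal.mk_Iio_lt β (by simp)
    rwa [hI] at this
  have hIic : #(Set.Iic β) < Cardinal.continuum := by
    have : Set.Iic β = Set.Iio β ∪ {β} := by
      ext x; simp [le_iff_lt_or_eq]
    rw [this]
    refine (Cardinal.mk_union_le _ _).trans_lt ?_
    refine Cardinal.add_lt_of_lt Cardinal.aleph0_le_continuum hIio ?_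
    simpa using (Cardinal.one_lt_aleph0.trans Cardinal.aleph0_lt_continuum)
  exact absurd hle (not_le.2 hIic)

/-- The family of classes of bases. -/
theorem exists_family (h : SplitHyp) :
    ∃ C : Set Cls,
      (∀ c ∈ C, c.V.Infinite ∧ (c.Yᶜ).Infinite) ∧
      (∀ c ∈ C, ∀ d ∈ C, Cls.le (c.V, c.Y) (d.V, d.Y) → c = d) ∧
      (∀ c ∈ C, ∀ d ∈ C, ((c.Y ∪ d.V)ᶜ).Finite → d.r < c.r) ∧
      (∀ PV PY QV QY : Set ℕ, PV ⊆ QV → PY ⊆ QY → QV.Infinite → (PYᶜ).Infinite →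
        (PV.Finite ∨ ∃ c ∈ C, Cls.le (PV, PY) (c.V, c.Y)) →
        ∃ c ∈ C, (Cls.le (PV, PY) (c.V, c.Y) ∧ Cls.le (c.V, c.Y) (QV, QY)) ∨
          Cls.le (c.V, c.Y) (PV, PY) ∨ Cls.le (QV, QY) (c.V, c.Y)) := by
  classical
  have hcardT : #((Set ℕ × Set ℕ) × (Set ℕ × Set ℕ)) ≤ Cardinal.continuum.{0} := by
    simp
  obtain ⟨g, hg⟩ := exists_enum ((Set ℕ × Set ℕ) × (Set ℕ × Set ℕ)) hcardT ⟨((∅, ∅), (∅, ∅))⟩
  obtain ⟨F, hF⟩ := exists_stage g
  refine ⟨{c | ∃ α, F α = some c}, ?_, ?_, ?_, ?_⟩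
  · rintro c ⟨α, hα⟩
    have := (hF α).1 c hα
    exact ⟨this.2.2.2.2.1, this.2.2.2.2.2.1⟩
  · rintro c ⟨α, hα⟩ d ⟨β, hβ⟩ hle
    rcases lt_trichotomy α β with hlt | heq | hlt
    · exact absurd hle (((hF β).1 d hβ).2.2.2.2.2.2.2.2 c ⟨α, hlt, hα⟩).1
    · subst heq
      rw [hα] at hβ
      exact Option.some.inj hβ
    · exact absurd hle (((hF α).1 c hα).2.2.2.2.2.2.2.2 d ⟨β, hlt, hβ⟩).2.1
  · rintro c ⟨α, hα⟩ d ⟨β, hβ⟩ hfin
    rcases lt_trichotomy α β with hlt | heq | hlt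
    · exact (((hF β).1 d hβ).2.2.2.2.2.2.2.2 c ⟨α, hlt, hα⟩).2.2.1 hfin
    · subst heq
      rw [hα] at hβ
      have := Option.some.inj hβ
      subst this
      exact absurd hfin ((hF α).1 c hα).2.2.2.2.2.2.1
    · exact (((hF α).1 c hα).2.2.2.2.2.2.2.2 d ⟨β, hlt, hβ⟩).2.2.2 hfin
  · intro PV PY QV QY hV hY hQV hPY hPc
    -- choose the stage
    obtain ⟨β₁, hβ₁⟩ : ∃ β₁ : Idx, PV.Finite ∨
        ∃ c, F β₁ = some c ∧ Cls.le (PV, PY) (c.V, c.Y) := by
      rcases hPc with hfin | ⟨c, ⟨β, hβ⟩, hc⟩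
      · have hne : Nonempty Idx := Cardinal.nonempty_ord_toType (by simp [Cardinal.continuum_ne_zero])
        exact ⟨hne.some, Or.inl hfin⟩
      · exact ⟨β, Or.inr ⟨c, hβ, hc⟩⟩
    obtain ⟨α, hβα, hgα⟩ := hg ((PV, PY), (QV, QY)) β₁
    by_cases hcon : ∃ c ∈ {d | ∃ β, β < α ∧ F β = some d},
        Cls.le (c.V, c.Y) (PV, PY) ∨ Cls.le (QV, QY) (c.V, c.Y)
    · obtain ⟨c, ⟨β, -, hβ⟩, hc⟩ := hcon
      exact ⟨c, ⟨β, hβ⟩, Or.inr hc⟩
    push Not at hcon
    set D : Set Cls := {d | ∃ β, β < α ∧ F β = some d} with hD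
    have hDprop : ∀ d ∈ D, d.V.Infinite ∧ (d.Yᶜ).Infinite ∧ ((d.Y ∪ d.V)ᶜ).Infinite ∧
        d.r < α := by
      rintro d ⟨β, hβ, hFβ⟩
      have := (hF β).1 d hFβ
      exact ⟨this.2.2.2.2.1, this.2.2.2.2.2.1, this.2.2.2.2.2.2.1,
        this.2.2.2.2.2.2.2.1.trans_lt hβ⟩
    have hDrank : ∀ c ∈ D, ∀ d ∈ D, ((c.Y ∪ d.V)ᶜ).Finite → d.r < c.r := by
      rintro c ⟨α, -, hα⟩ d ⟨β, -, hβ⟩ hfin
      rcases lt_trichotomy α β with hlt | heq | hlt
      · exact (((hF β).1 d hβ).2.2.2.2.2.2.2.2 c ⟨α, hlt, hα⟩).2.2.1 hfin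
      · subst heq
        rw [hα] at hβ
        have := Option.some.inj hβ
        subst this
        exact absurd hfin ((hF α).1 c hα).2.2.2.2.2.2.1
      · exact (((hF α).1 c hα).2.2.2.2.2.2.2.2 d ⟨β, hlt, hβ⟩).2.2.2 hfin
    have hDcard : #(↥((fun d : Cls => (d.V, d.Y)) '' D)) < Cardinal.continuum := by
      refine Cardinal.mk_image_le.trans_lt ?_
      have hsub : (some '' D : Set (Option Cls)) ⊆ F '' (Set.Iio α) := by
        rintro _ ⟨d, ⟨β, hβ, hFβ⟩, rfl⟩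
        exact ⟨β, hβ, hFβ⟩
      have h1 := (Cardinal.mk_le_mk_of_subset hsub).trans Cardinal.mk_image_le
      rw [Cardinal.mk_image_eq (Option.some_injective _)] at h1
      refine h1.trans_lt ?_
      have := Cardinal.mk_Iio_lt α (by simp)
      rwa [Cardinal.mk_ord_toType] at this
    have h5 : ((PY ∪ PV)ᶜ).Infinite := by
      rcases hβ₁ with hfin | ⟨c, hc, hle⟩
      · have : (PY ∪ PV)ᶜ = PYᶜ \ PV := by
          ext x; simp
        rw [this]
        exact hPY.sdiff hfin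
      · have hcD : c ∈ D := ⟨β₁, hβα, hc⟩
        intro hfin
        apply (hDprop c hcD).2.2.1
        refine ((hfin.union hle.1).union hle.2).subset ?_
        intro x hx
        simp only [mem_compl_iff, mem_union, not_or] at hx
        by_cases h1 : x ∈ PY
        · exact Or.inr ⟨h1, hx.1⟩
        · by_cases h2 : x ∈ PV
          · exact Or.inl (Or.inr ⟨h2, hx.2⟩)
          · exact Or.inl (Or.inl (by simp [h1, h2]))
    obtain ⟨V, Y, a1, a2, a3, a4, a5, a6, a7, a8⟩ := add_lemma h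
      ((fun d : Cls => (d.V, d.Y)) '' D) hDcard hV hY
      (by rintro _ ⟨d, hd, rfl⟩; exact (hcon d hd).1)
      (by rintro _ ⟨d, hd, rfl⟩; exact (hcon d hd).2) hQV hPY h5
    have a8' : ∀ d ∈ D, _ := fun d hd => a8 (d.V, d.Y) ⟨d, hd, rfl⟩
    -- the new class
    obtain ⟨r, hrα, hrin, hrout⟩ : ∃ r : Idx, r ≤ α ∧
        (∀ d ∈ D, ((d.Y ∪ V)ᶜ).Finite → r < d.r) ∧
        (∀ d ∈ D, ((Y ∪ d.V)ᶜ).Finite → d.r < r) := by
      rcases hβ₁ with hfin | ⟨c, hc, hle⟩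
      · refine ⟨α, le_rfl, ?_, ?_⟩
        · intro d hd hf
          exfalso
          have h6 : ((d.Y ∪ PV)ᶜ).Infinite := by
            have : (d.Y ∪ PV)ᶜ = d.Yᶜ \ PV := by
              ext x; simp
            rw [this]
            exact (hDprop d hd).2.1.sdiff hfin
          exact ((a8' d hd).2.2.1 h6) hf
        · intro d hd _
          exact (hDprop d hd).2.2.2
      · have hcD : c ∈ D := ⟨β₁, hβα, hc⟩
        refine ⟨c.r, (hDprop c hcD).2.2.2.le, ?_, ?_⟩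
        · intro d hd hf
          apply hDrank d hd c hcD
          have h6 : ((d.Y ∪ PV)ᶜ).Finite := by
            by_contra h6
            exact ((a8' d hd).2.2.1 h6) hf
          refine (h6.union hle.1).subset ?_
          intro x hx
          simp only [mem_compl_iff, mem_union, not_or] at hx
          by_cases h2 : x ∈ PV
          · exact Or.inr ⟨h2, hx.2⟩
          · exact Or.inl (by simp [hx.1, h2])
        · intro d hd hf
          apply hDrank c hcD d hd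
          have h6 : ((PY ∪ d.V)ᶜ).Finite := by
            by_contra h6
            exact ((a8' d hd).2.2.2 h6) hf
          refine (h6.union hle.2).subset ?_
          intro x hx
          simp only [mem_compl_iff, mem_union, not_or] at hx
          by_cases h2 : x ∈ PY
          · exact Or.inr ⟨h2, hx.1⟩
          · exact Or.inl (by simp [hx.2, h2])
    have hcomp : Compat D α (g α) ⟨V, Y, r⟩ := by
      rw [hgα]
      refine ⟨a1, a2, a3, a4, a5, a6, a7, hrα, ?_⟩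
      intro d hd
      exact ⟨(a8' d hd).1, (a8' d hd).2.1, hrin d hd, hrout d hd⟩
    obtain ⟨c, hc⟩ := (hF α).2 ⟨_, hcomp⟩
    have hcc := (hF α).1 c hc
    rw [hgα] at hcc
    refine ⟨c, ⟨α, hc⟩, Or.inl ⟨⟨?_, ?_⟩, ⟨?_, ?_⟩⟩⟩
    · simp [Set.sdiff_eq_empty.2 hcc.1]
    · simp [Set.sdiff_eq_empty.2 hcc.2.2.1]
    · simp [Set.sdiff_eq_empty.2 hcc.2.1]
    · simp [Set.sdiff_eq_empty.2 hcc.2.2.2.1]

end Vale.Agent.P068
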