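import Vale.Agent.P068_h2.Defs

/-!
Splitting families: the combinatorial hypothesis `SplitHyp` (the reaping number is the continuum),
its consequence for relative splittings, and the fact that CH implies it.
-/

namespace Vale.Agent.P068

open Set Cardinal

/-- A relative version of splitting. -/
theorem SplitHyp.rel (h : SplitHyp) (R : Set ℕ) (T : Set (Set ℕ)) (hT : #T < Cardinal.continuum) :
    ∃ G : Set ℕ, G ⊆ R ∧ ∀ A ∈ T, (A.Infinite → (A \ G).Infinite) ∧
      ((A ∩ R).Infinite → (A ∩ G).Infinite) := by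
  classical
  obtain ⟨G, hG⟩ := h {B | ∃ A ∈ T, B = A ∩ R ∧ B.Infinite} (by
    refine lt_of_le_of_lt ?_ hT
    have : {B | ∃ A ∈ T, B = A ∩ R ∧ B.Infinite} ⊆ (fun A => A ∩ R) '' T := by
      rintro B ⟨A, hA, rfl, -⟩
      exact ⟨A, hA, rfl⟩
    exact (Cardinal.mk_le_mk_of_subset this).trans Cardinal.mk_image_le) (by
    rintro A ⟨-, -, -, h⟩
    exact h)
  refine ⟨G ∩ R, inter_subset_right, fun A hA => ⟨fun hinf => ?_, fun hinf => ?_⟩⟩
  · by_cases hAR : (A ∩ R).Infinite
    · refine (hG (A ∩ R) ⟨A, hA, rfl, hAR⟩).2.mono ?_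
      rintro x ⟨⟨h1, h2⟩, h3⟩
      exact ⟨h1, fun h4 => h3 h4.1⟩
    · have : (A \ R).Infinite := by
        intro hfin
        apply hinf
        refine ((not_infinite.1 hAR).union hfin).subset ?_
        intro x hx
        by_cases hxR : x ∈ R
        · exact Or.inl ⟨hx, hxR⟩
        · exact Or.inr ⟨hx, hxR⟩
      exact this.mono fun x hx => ⟨hx.1, fun h => hx.2 h.2⟩
  · refine (hG (A ∩ R) ⟨A, hA, rfl, hinf⟩).1.mono ?_
    rintro x ⟨⟨h1, h2⟩, h3⟩
    exact ⟨h1, h3, h2⟩

/-- A countable family of infinite sets is split by a single set. -/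
theorem exists_split_seq (A : ℕ → Set ℕ) (hA : ∀ n, (A n).Infinite) :
    ∃ G : Set ℕ, ∀ n, (A n ∩ G).Infinite ∧ (A n \ G).Infinite := by
  classical
  -- choose a strictly increasing sequence `x` with `x (2m), x (2m+1) ∈ A (unpair m).1`
  have hstep : ∀ m N : ℕ, ∃ y, N < y ∧ y ∈ A (Nat.unpair (m / 2)).1 := by
    intro m N
    obtain ⟨y, hy, hN⟩ := (hA (Nat.unpair (m / 2)).1).exists_gt N
    exact ⟨y, hN, hy⟩
  choose f hf1 hf2 using hstep
  obtain ⟨x, hmono, hmem⟩ : ∃ x : ℕ → ℕ, StrictMono x ∧ ∀ m, x m ∈ A (Nat.unpair (m / 2)).1 := by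
    let x : ℕ → ℕ := fun n => Nat.rec (f 0 0) (fun m p => f (m + 1) p) n
    have hx0 : x 0 = f 0 0 := rfl
    have hxs : ∀ m, x (m + 1) = f (m + 1) (x m) := fun m => rfl
    refine ⟨x, strictMono_nat_of_lt_succ fun n => by rw [hxs]; exact hf1 _ _, ?_⟩
    intro m
    cases m with
    | zero => rw [hx0]; exact hf2 _ _
    | succ m => rw [hxs]; exact hf2 _ _
  refine ⟨{y | ∃ m, y = x (2 * m)}, fun n => ⟨?_, ?_⟩⟩
  · have : (Set.range fun j : ℕ => x (2 * Nat.pair n j)).Infinite := by
      apply Set.infinite_range_of_injective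
      intro j j' h
      have := hmono.injective h
      have h2 : Nat.pair n j = Nat.pair n j' := by omega
      exact (Nat.pair_eq_pair.1 h2).2
    refine this.mono ?_
    rintro _ ⟨j, rfl⟩
    refine ⟨?_, _, rfl⟩
    have := hmem (2 * Nat.pair n j)
    simpa using this
  · have : (Set.range fun j : ℕ => x (2 * Nat.pair n j + 1)).Infinite := by
      apply Set.infinite_range_of_injective
      intro j j' h
      replace h : x (2 * Nat.pair n j + 1) = x (2 * Nat.pair n j' + 1) := h
      have := hmono.injective h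
      have h2 : Nat.pair n j = Nat.pair n j' := by omega
      exact (Nat.pair_eq_pair.1 h2).2
    refine this.mono ?_
    rintro _ ⟨j, rfl⟩
    refine ⟨?_, ?_⟩
    · have := hmem (2 * Nat.pair n j + 1)
      have h3 : (2 * Nat.pair n j + 1) / 2 = Nat.pair n j := by omega
      rw [h3] at this
      simpa using this
    · rintro ⟨m, hm⟩
      replace hm : x (2 * Nat.pair n j + 1) = x (2 * m) := hm
      have := hmono.injective hm
      omega

/-- The continuum hypothesis implies `SplitHyp`. -/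
theorem splitHyp_of_CH (hCH : Cardinal.continuum.{0} = Cardinal.aleph 1) : SplitHyp := by
  intro S hS hinf
  have hc : S.Countable := by
    rw [← Cardinal.le_aleph0_iff_set_countable]
    rw [hCH] at hS
    have : Cardinal.aleph 1 = Order.succ Cardinal.aleph0.{0} := by
      rw [Cardinal.succ_aleph0]
    rw [this] at hS
    exact Order.lt_succ_iff.1 hS
  rcases S.eq_empty_or_nonempty with rfl | hne
  · exact ⟨∅, by simp⟩
  obtain ⟨A, hA⟩ := hc.exists_eq_range hne
  obtain ⟨G, hG⟩ := exists_split_seq A (fun n => hinf _ (hA ▸ mem_range_self n))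
  refine ⟨G, ?_⟩
  intro B hB
  rw [hA] at hB
  obtain ⟨n, rfl⟩ := hB
  exact hG n

end Vale.Agent.P068
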