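import Vale.Agent.P068_h2.Recur
import Vale.Agent.P068_h2.Index

/-!
Uniform systems (the base families of uniform matroids) and the special uniform system `L`
on `ℕ ⊕ ℕ` obtained from the transfinite recursion.
-/

namespace Vale.Agent.P068

open Set

/-- The family of bases of a matroid on `β` in which every set is independent or spanning. -/
structure USys (β : Type*) where
  Base : Set β → Prop
  exch : ∀ B, Base B → ∀ x ∈ B, ∀ y ∉ B, Base (insert y (B \ {x}))
  anti : ∀ A B, Base A → Base B → A ⊆ B → A = B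
  dec : ∀ X, (∃ B, Base B ∧ B ⊆ X) ∨ (∃ B, Base B ∧ X ⊆ B)
  mid : ∀ P Q A B, P ⊆ Q → Base A → P ⊆ A → Base B → B ⊆ Q → ∃ C, Base C ∧ P ⊆ C ∧ C ⊆ Q

namespace USys

variable {β γ : Type*} (U : USys β)

/-- Independent sets. -/
def Ind (X : Set β) : Prop := ∃ B, U.Base B ∧ X ⊆ B

/-- Spanning sets. -/
def Spn (X : Set β) : Prop := ∃ B, U.Base B ∧ B ⊆ X

variable {U}

theorem Ind.mono {X Y : Set β} (h : U.Ind Y) (hXY : X ⊆ Y) : U.Ind X := by
  obtain ⟨B, hB, hYB⟩ := h
  exact ⟨B, hB, hXY.trans hYB⟩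

theorem Spn.mono {X Y : Set β} (h : U.Spn X) (hXY : X ⊆ Y) : U.Spn Y := by
  obtain ⟨B, hB, hYB⟩ := h
  exact ⟨B, hB, hYB.trans hXY⟩

theorem ind_or_spn (X : Set β) : U.Ind X ∨ U.Spn X := by
  rcases U.dec X with h | h
  · exact Or.inr h
  · exact Or.inl h

theorem base_of {X : Set β} (h1 : U.Ind X) (h2 : U.Spn X) : U.Base X := by
  obtain ⟨A, hA, hXA⟩ := h1
  obtain ⟨B, hB, hBX⟩ := h2
  have : B = A := U.anti B A hB hA (hBX.trans hXA)
  subst this
  rwa [hXA.antisymm hBX]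

theorem Base.ind {X : Set β} (h : U.Base X) : U.Ind X := ⟨X, h, Subset.rfl⟩

theorem Base.spn {X : Set β} (h : U.Base X) : U.Spn X := ⟨X, h, Subset.rfl⟩

theorem Ind.insert {X : Set β} (h : U.Ind X) (hn : ¬ U.Spn X) (x : β) :
    U.Ind (insert x X) := by
  obtain ⟨B, hB, hXB⟩ := h
  by_cases hx : x ∈ B
  · exact ⟨B, hB, insert_subset hx hXB⟩
  · have hne : ∃ y ∈ B, y ∉ X := by
      by_contra hcon
      push Not at hcon
      exact hn ⟨B, hB, hcon⟩
    obtain ⟨y, hyB, hyX⟩ := hne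
    refine ⟨_, U.exch B hB y hyB x hx, ?_⟩
    apply insert_subset_insert
    intro z hz
    exact ⟨hXB hz, fun h => hyX (h ▸ hz)⟩

theorem Base.eq_of_ind {A X : Set β} (hA : U.Base A) (hX : U.Ind X) (h : A ⊆ X) : A = X := by
  obtain ⟨B, hB, hXB⟩ := hX
  have : A = B := U.anti A B hA hB (h.trans hXB)
  subst this
  exact h.antisymm hXB

theorem Ind.eq_of_spn {A X : Set β} (hX : U.Ind X) (hA : U.Spn A) (h : A ⊆ X) : A = X := by
  obtain ⟨B, hB, hBA⟩ := hA
  have := Base.eq_of_ind hB hX (hBA.trans h)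
  subst this
  exact h.antisymm hBA

/-- Interpolation. -/
theorem exists_base_between {P Q : Set β} (hPQ : P ⊆ Q) (hP : U.Ind P) (hQ : U.Spn Q) :
    ∃ C, U.Base C ∧ P ⊆ C ∧ C ⊆ Q := by
  obtain ⟨A, hA, hPA⟩ := hP
  obtain ⟨B, hB, hBQ⟩ := hQ
  exact U.mid P Q A B hPQ hA hPA hB hBQ

theorem ind_empty : U.Ind ∅ := by
  rcases U.dec ∅ with ⟨B, hB, _⟩ | ⟨B, hB, _⟩
  · exact ⟨B, hB, empty_subset _⟩
  · exact ⟨B, hB, empty_subset _⟩

theorem spn_univ : U.Spn univ := by
  rcases U.dec ∅ with ⟨B, hB, _⟩ | ⟨B, hB, _⟩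
  · exact ⟨B, hB, subset_univ _⟩
  · exact ⟨B, hB, subset_univ _⟩

variable (U)

/-- The dual system. -/
def dual : USys β where
  Base X := U.Base Xᶜ
  exch B hB x hx y hy := by
    have h := U.exch Bᶜ hB y hy x (by simpa using hx)
    have : (insert y (B \ {x}))ᶜ = insert x (Bᶜ \ {y}) := by
      have hxy : x ≠ y := fun h => hy (h ▸ hx)
      ext z
      simp only [mem_compl_iff, mem_insert_iff, mem_sdiff, mem_singleton_iff, not_or, not_and,
        not_not]
      constructor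
      · rintro ⟨h1, h2⟩
        by_cases hz : z ∈ B
        · exact Or.inl (h2 hz)
        · exact Or.inr ⟨hz, h1⟩
      · rintro (rfl | ⟨h1, h2⟩)
        · exact ⟨hxy, fun _ => rfl⟩
        · exact ⟨h2, fun h => absurd h h1⟩
    rw [this]
    exact h
  anti A B hA hB hAB := by
    have := U.anti Bᶜ Aᶜ hB hA (compl_subset_compl.2 hAB)
    exact (compl_injective this).symm
  dec X := by
    rcases U.dec Xᶜ with ⟨B, hB, h⟩ | ⟨B, hB, h⟩
    · exact Or.inr ⟨Bᶜ, by simpa using hB, by rwa [subset_compl_comm] at h⟩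
    · exact Or.inl ⟨Bᶜ, by simpa using hB, by rwa [compl_subset_comm] at h⟩
  mid P Q A B hPQ hA hPA hB hBQ := by
    obtain ⟨C, hC, h1, h2⟩ := U.mid Qᶜ Pᶜ Bᶜ Aᶜ (compl_subset_compl.2 hPQ) hB
      (compl_subset_compl.2 hBQ) hA (compl_subset_compl.2 hPA)
    exact ⟨Cᶜ, by simpa using hC, by rwa [subset_compl_comm] at h2,
      by rwa [compl_subset_comm] at h1⟩

variable {U}

theorem dual_ind {X : Set β} : U.dual.Ind X ↔ U.Spn Xᶜ := by
  constructor
  · rintro ⟨B, hB, h⟩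
    exact ⟨Bᶜ, hB, compl_subset_compl.2 h⟩
  · rintro ⟨B, hB, h⟩
    exact ⟨Bᶜ, by simpa [dual] using hB, by rwa [subset_compl_comm] at h⟩

theorem dual_spn {X : Set β} : U.dual.Spn X ↔ U.Ind Xᶜ := by
  constructor
  · rintro ⟨B, hB, h⟩
    exact ⟨Bᶜ, hB, compl_subset_compl.2 h⟩
  · rintro ⟨B, hB, h⟩
    exact ⟨Bᶜ, by simpa [dual] using hB, by rwa [compl_subset_comm] at h⟩

variable (U)

/-- Transport along an equivalence. -/
def comap (e : γ ≃ β) : USys γ where
  Base X := U.Base (e.symm ⁻¹' X)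
  exch B hB x hx y hy := by
    have h := U.exch _ hB (e x) (by simpa using hx) (e y) (by simpa using hy)
    have : e.symm ⁻¹' (insert y (B \ {x})) = insert (e y) (e.symm ⁻¹' B \ {e x}) := by
      ext z
      simp [Equiv.symm_apply_eq]
    rw [this]
    exact h
  anti A B hA hB hAB := by
    have := U.anti _ _ hA hB (preimage_mono hAB)
    exact (preimage_injective.2 e.symm.surjective) this
  dec X := by
    rcases U.dec (e.symm ⁻¹' X) with ⟨B, hB, h⟩ | ⟨B, hB, h⟩
    · refine Or.inl ⟨e ⁻¹' B, ?_, ?_⟩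
      · simpa [← preimage_comp] using hB
      · intro z hz
        simpa using h hz
    · refine Or.inr ⟨e ⁻¹' B, ?_, ?_⟩
      · simpa [← preimage_comp] using hB
      · intro z hz
        exact h (by simpa using hz)
  mid P Q A B hPQ hA hPA hB hBQ := by
    obtain ⟨C, hC, h1, h2⟩ := U.mid _ _ _ _ (preimage_mono hPQ) hA (preimage_mono hPA) hB
      (preimage_mono hBQ)
    refine ⟨e ⁻¹' C, ?_, ?_, ?_⟩
    · simpa [← preimage_comp] using hC
    · intro z hz
      exact h1 (by simpa using hz)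
    · intro z hz
      simpa using h2 hz

variable {U}

theorem comap_ind {e : γ ≃ β} {X : Set γ} : (U.comap e).Ind X ↔ U.Ind (e.symm ⁻¹' X) := by
  constructor
  · rintro ⟨B, hB, h⟩
    exact ⟨_, hB, preimage_mono h⟩
  · rintro ⟨B, hB, h⟩
    refine ⟨e ⁻¹' B, ?_, ?_⟩
    · simpa [comap, ← preimage_comp] using hB
    · intro z hz
      exact h (by simpa using hz)

theorem comap_spn {e : γ ≃ β} {X : Set γ} : (U.comap e).Spn X ↔ U.Spn (e.symm ⁻¹' X) := by
  constructor
  · rintro ⟨B, hB, h⟩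
    exact ⟨_, hB, preimage_mono h⟩
  · rintro ⟨B, hB, h⟩
    refine ⟨e ⁻¹' B, ?_, ?_⟩
    · simpa [comap, ← preimage_comp] using hB
    · intro z hz
      simpa using h hz

end USys

/-- The subset of `ℕ ⊕ ℕ` with the given two parts. -/
def mk2 (V Y : Set ℕ) : Set (ℕ ⊕ ℕ) := {z | Sum.elim (fun x => x ∈ V) (fun y => y ∈ Y) z}

@[simp] theorem mem_mk2_inl {V Y : Set ℕ} {x : ℕ} : Sum.inl x ∈ mk2 V Y ↔ x ∈ V := Iff.rfl

@[simp] theorem mem_mk2_inr {V Y : Set ℕ} {x : ℕ} : Sum.inr x ∈ mk2 V Y ↔ x ∈ Y := Iff.rfl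

theorem mk2_compl (V Y : Set ℕ) : (mk2 V Y)ᶜ = mk2 Vᶜ Yᶜ := by
  ext z; cases z <;> simp

theorem eq_mk2 (X : Set (ℕ ⊕ ℕ)) : X = mk2 (Sum.inl ⁻¹' X) (Sum.inr ⁻¹' X) := by
  ext z; cases z <;> simp

theorem mk2_subset {V Y V' Y' : Set ℕ} : mk2 V Y ⊆ mk2 V' Y' ↔ V ⊆ V' ∧ Y ⊆ Y' := by
  constructor
  · intro h
    exact ⟨fun x hx => h (a := Sum.inl x) hx, fun x hx => h (a := Sum.inr x) hx⟩
  · rintro ⟨h1, h2⟩ (x | x) hx
    · exact h1 hx
    · exact h2 hx

theorem mk2_diff (V Y V' Y' : Set ℕ) : mk2 V Y \ mk2 V' Y' = mk2 (V \ V') (Y \ Y') := by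
  ext z; cases z <;> simp

theorem mk2_eq_union (V Y : Set ℕ) : mk2 V Y = Sum.inl '' V ∪ Sum.inr '' Y := by
  ext z; cases z <;> simp

theorem mk2_finite {V Y : Set ℕ} : (mk2 V Y).Finite ↔ V.Finite ∧ Y.Finite := by
  rw [mk2_eq_union, Set.finite_union, Set.finite_image_iff Sum.inl_injective.injOn,
    Set.finite_image_iff Sum.inr_injective.injOn]

theorem mk2_ncard {V Y : Set ℕ} (hV : V.Finite) (hY : Y.Finite) :
    (mk2 V Y).ncard = V.ncard + Y.ncard := by
  rw [mk2_eq_union, Set.ncard_union_eq ?_ (hV.image _) (hY.image _),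
    Set.ncard_image_of_injective _ Sum.inl_injective,
    Set.ncard_image_of_injective _ Sum.inr_injective]
  rw [Set.disjoint_left]
  rintro _ ⟨x, _, rfl⟩ ⟨y, _, h⟩
  exact absurd h (by simp)

/-- The special class: one element on the left, everything on the right. -/
def spec : Set (ℕ ⊕ ℕ) := mk2 {0} univ

section

variable (C : Set Cls)

/-- The representatives of the classes of bases. -/
def reps : Set (Set (ℕ ⊕ ℕ)) := insert spec ((fun c : Cls => mk2 c.V c.Y) '' C)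

variable {C}
variable (hinf : ∀ c ∈ C, c.V.Infinite ∧ (c.Yᶜ).Infinite)
  (hanti : ∀ c ∈ C, ∀ d ∈ C, Cls.le (c.V, c.Y) (d.V, d.Y) → c = d)
  (hcomp : ∀ PV PY QV QY : Set ℕ, PV ⊆ QV → PY ⊆ QY → QV.Infinite → (PYᶜ).Infinite →
        (PV.Finite ∨ ∃ c ∈ C, Cls.le (PV, PY) (c.V, c.Y)) →
        ∃ c ∈ C, (Cls.le (PV, PY) (c.V, c.Y) ∧ Cls.le (c.V, c.Y) (QV, QY)) ∨
          Cls.le (c.V, c.Y) (PV, PY) ∨ Cls.le (QV, QY) (c.V, c.Y))

/-- Inclusion modulo finite. -/
def LeF {Ω : Type*} (A B : Set Ω) : Prop := (A \ B).Finite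

theorem LeF.trans {Ω : Type*} {A B D : Set Ω} (h1 : LeF A B) (h2 : LeF B D) : LeF A D := by
  refine (h1.union h2).subset ?_
  rintro x ⟨hx, hd⟩
  by_cases hb : x ∈ B
  · exact Or.inr ⟨hb, hd⟩
  · exact Or.inl ⟨hx, hb⟩

theorem leF_of_subset {Ω : Type*} {A B : Set Ω} (h : A ⊆ B) : LeF A B := by
  unfold LeF
  rw [Set.sdiff_eq_empty.2 h]
  exact finite_empty

theorem leF_mk2 {V Y V' Y' : Set ℕ} :
    LeF (mk2 V Y) (mk2 V' Y') ↔ Cls.le (V, Y) (V', Y') := by
  unfold LeF Cls.le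
  rw [mk2_diff, mk2_finite]

include hinf hanti in
theorem reps_anti {a b : Set (ℕ ⊕ ℕ)} (ha : a ∈ reps C) (hb : b ∈ reps C) (hab : LeF a b) :
    a = b := by
  rcases ha with rfl | ⟨c, hc, rfl⟩
  · rcases hb with rfl | ⟨d, hd, rfl⟩
    · rfl
    · exfalso
      have := (leF_mk2.1 hab).2
      apply (hinf d hd).2
      simpa [compl_eq_univ_sdiff] using this
  · rcases hb with rfl | ⟨d, hd, rfl⟩
    · exfalso
      have := (leF_mk2.1 hab).1
      apply (hinf c hc).1
      have h2 := this.union (finite_singleton 0)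
      refine h2.subset ?_
      intro x hx
      by_cases h0 : x = 0
      · exact Or.inr h0
      · exact Or.inl ⟨hx, h0⟩
    · have := hanti c hc d hd (leF_mk2.1 hab)
      subst this
      rfl

include hinf hanti hcomp in
/-- Interpolation of classes. -/
theorem reps_between {P Q a b : Set (ℕ ⊕ ℕ)} (hPQ : P ⊆ Q) (ha : a ∈ reps C) (hPa : LeF P a)
    (hb : b ∈ reps C) (hbQ : LeF b Q) : ∃ c ∈ reps C, LeF P c ∧ LeF c Q := by
  by_cases h1 : LeF a Q
  · exact ⟨a, ha, hPa, h1⟩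
  by_cases h2 : LeF P b
  · exact ⟨b, hb, h2, hbQ⟩
  -- the parts
  set PV := Sum.inl ⁻¹' P with hPV
  set PY := Sum.inr ⁻¹' P with hPY
  set QV := Sum.inl ⁻¹' Q with hQV
  set QY := Sum.inr ⁻¹' Q with hQY
  have eP : P = mk2 PV PY := eq_mk2 P
  have eQ : Q = mk2 QV QY := eq_mk2 Q
  have hcondP : (PYᶜ).Infinite ∧ (PV.Finite ∨ ∃ c ∈ C, Cls.le (PV, PY) (c.V, c.Y)) := by
    rcases ha with rfl | ⟨c, hc, rfl⟩
    · have hPVf : PV.Finite := by
        rw [eP] at hPa
        have := (leF_mk2.1 hPa).1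
        refine (this.union (finite_singleton 0)).subset ?_
        intro x hx
        by_cases h0 : x = 0
        · exact Or.inr h0
        · exact Or.inl ⟨hx, h0⟩
      refine ⟨?_, Or.inl hPVf⟩
      intro hfin
      apply h1
      refine LeF.trans ?_ (leF_of_subset hPQ)
      rw [eP]
      unfold spec
      rw [leF_mk2]
      exact ⟨(finite_singleton 0).subset sdiff_subset, by simpa [compl_eq_univ_sdiff] using hfin⟩
    · rw [eP] at hPa
      have hle := leF_mk2.1 hPa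
      refine ⟨?_, Or.inr ⟨c, hc, hle⟩⟩
      intro hfin
      apply (hinf c hc).2
      refine (hfin.union hle.2).subset ?_
      intro x hx
      by_cases h0 : x ∈ PY
      · exact Or.inr ⟨h0, hx⟩
      · exact Or.inl h0
  have hcondQ : QV.Infinite := by
    intro hfin
    rcases hb with rfl | ⟨c, hc, rfl⟩
    · apply h2
      refine LeF.trans (leF_of_subset hPQ) ?_
      rw [eQ]
      unfold spec
      rw [leF_mk2]
      exact ⟨hfin.subset sdiff_subset, by simp⟩
    · rw [eQ] at hbQ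
      have hle := leF_mk2.1 hbQ
      apply (hinf c hc).1
      refine (hfin.union hle.1).subset ?_
      intro x hx
      by_cases h0 : x ∈ QV
      · exact Or.inl h0
      · exact Or.inr ⟨hx, h0⟩
  obtain ⟨c, hc, h | h | h⟩ := hcomp PV PY QV QY (preimage_mono hPQ) (preimage_mono hPQ) hcondQ
    hcondP.1 hcondP.2
  · refine ⟨mk2 c.V c.Y, Or.inr ⟨c, hc, rfl⟩, ?_, ?_⟩
    · rw [eP, leF_mk2]; exact h.1
    · rw [eQ, leF_mk2]; exact h.2
  · exfalso
    apply h1
    have h3 : LeF (mk2 c.V c.Y) P := by rw [eP, leF_mk2]; exact h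
    have h4 := reps_anti hinf hanti (Or.inr ⟨c, hc, rfl⟩) ha (h3.trans hPa)
    rw [← h4]
    exact h3.trans (leF_of_subset hPQ)
  · exfalso
    apply h2
    have h3 : LeF Q (mk2 c.V c.Y) := by rw [eQ, leF_mk2]; exact h
    have h4 := reps_anti hinf hanti hb (Or.inr ⟨c, hc, rfl⟩) (hbQ.trans h3)
    rw [h4]
    exact (leF_of_subset hPQ).trans h3

include hinf in
theorem reps_infinite {a : Set (ℕ ⊕ ℕ)} (ha : a ∈ reps C) : a.Infinite ∧ (aᶜ).Infinite := by
  rcases ha with rfl | ⟨c, hc, rfl⟩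
  · unfold spec
    refine ⟨fun h => ?_, fun h => ?_⟩
    · exact Set.infinite_univ (mk2_finite.1 h).2
    · rw [mk2_compl] at h
      exact (Set.finite_singleton (0 : ℕ)).infinite_compl (mk2_finite.1 h).1
  · refine ⟨fun h => (hinf c hc).1 (mk2_finite.1 h).1, fun h => ?_⟩
    rw [mk2_compl] at h
    exact (hinf c hc).2 (mk2_finite.1 h).2

/-- The uniform system obtained from the family. -/
def mkSys : USys (ℕ ⊕ ℕ) where
  Base B := ∃ c ∈ reps C, Bal B c
  exch := by
    rintro B ⟨c, hc, hBc⟩ x hx y hy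
    exact ⟨c, hc, (bal_exchange hx hy).trans hBc⟩
  anti := by
    rintro A B ⟨c, hc, hAc⟩ ⟨d, hd, hBd⟩ hAB
    have h1 : LeF c d := LeF.trans (LeF.trans hAc.2.1 (leF_of_subset hAB)) hBd.1
    have h2 := reps_anti hinf hanti hc hd h1
    subst h2
    exact (hAc.trans hBd.symm).eq_of_subset hAB
  dec := by
    intro X
    -- a comparable class
    obtain ⟨c, hc, h⟩ : ∃ c ∈ reps C, LeF X c ∨ LeF c X := by
      set XV := Sum.inl ⁻¹' X with hXV
      set XY := Sum.inr ⁻¹' X with hXY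
      have eX : X = mk2 XV XY := eq_mk2 X
      by_cases h1 : XV.Finite
      · refine ⟨spec, Or.inl rfl, Or.inl ?_⟩
        rw [eX]
        unfold spec
        rw [leF_mk2]
        exact ⟨h1.subset sdiff_subset, by simp⟩
      by_cases h2 : (XYᶜ).Finite
      · refine ⟨spec, Or.inl rfl, Or.inr ?_⟩
        rw [eX]
        unfold spec
        rw [leF_mk2]
        exact ⟨(finite_singleton 0).subset sdiff_subset, by simpa [compl_eq_univ_sdiff] using h2⟩
      obtain ⟨c, hc, h | h | h⟩ := hcomp ∅ ∅ XV XY (empty_subset _) (empty_subset _) h1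
        (by simpa using Set.infinite_univ) (Or.inl finite_empty)
      · refine ⟨mk2 c.V c.Y, Or.inr ⟨c, hc, rfl⟩, Or.inr ?_⟩
        rw [eX, leF_mk2]; exact h.2
      · refine ⟨mk2 c.V c.Y, Or.inr ⟨c, hc, rfl⟩, Or.inr ?_⟩
        rw [eX, leF_mk2]
        exact ⟨h.1.subset (by intro x hx; exact ⟨hx.1, by simp⟩),
          h.2.subset (by intro x hx; exact ⟨hx.1, by simp⟩)⟩
      · refine ⟨mk2 c.V c.Y, Or.inr ⟨c, hc, rfl⟩, Or.inl ?_⟩
        rw [eX, leF_mk2]; exact h
    have hcinf := reps_infinite hinf hc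
    by_cases hXc : LeF X c
    · by_cases hgood : (c \ X).Finite → (X \ c).ncard ≤ (c \ X).ncard
      · obtain ⟨B, hB, h1, -⟩ := exists_bal_between (subset_univ X) hXc (by simp) hgood
          (fun hfin => absurd (by simpa [compl_eq_univ_sdiff] using hfin) hcinf.2)
        exact Or.inr ⟨B, ⟨c, hc, hB⟩, h1⟩
      · push Not at hgood
        obtain ⟨hfin, hlt⟩ := hgood
        obtain ⟨B, hB, -, h1⟩ := exists_bal_between (empty_subset X) (by simp) hfin
          (fun hf => absurd (by simpa using hf) hcinf.1) (fun _ => hlt.le)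
        exact Or.inl ⟨B, ⟨c, hc, hB⟩, h1⟩
    · have hcX : LeF c X := by tauto
      obtain ⟨B, hB, -, h1⟩ := exists_bal_between (empty_subset X) (by simp) hcX
        (fun hf => absurd (by simpa using hf) hcinf.1) (fun hf => absurd hf hXc)
      exact Or.inl ⟨B, ⟨c, hc, hB⟩, h1⟩
  mid := by
    rintro P Q A B hPQ ⟨a, ha, hAa⟩ hPA ⟨b, hb, hBb⟩ hBQ
    have hPa : LeF P a := (leF_of_subset hPA).trans hAa.1
    have hbQ : LeF b Q := LeF.trans hBb.2.1 (leF_of_subset hBQ)
    obtain ⟨c, hc, hPc, hcQ⟩ := reps_between hinf hanti hcomp hPQ ha hPa hb hbQ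
    obtain ⟨D, hD, h1, h2⟩ := exists_bal_between hPQ hPc hcQ
      (by
        intro hfin
        have e : c = a := reps_anti hinf hanti hc ha (LeF.trans hfin hPa)
        subst e
        -- `P ⊆ A`, `Bal A c`
        have hF : ((c \ P) ∪ (A \ c) ∪ (c \ A)).Finite := (hfin.union hAa.1).union hAa.2.1
        have w1 := (bal_iff_window hF (A := A) (B := c)
          (fun x hx => Or.inl (Or.inr hx)) (fun x hx => Or.inr hx)).1 hAa
        have w2 := ncard_window hF (A := P) (B := c)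
          (fun x hx => Or.inl (Or.inr ⟨hPA hx.1, hx.2⟩))
        have w3 := ncard_window hF (A := c) (B := P) (fun x hx => Or.inl (Or.inl hx))
        have w4 : (P ∩ ((c \ P) ∪ (A \ c) ∪ (c \ A))).ncard ≤
            (A ∩ ((c \ P) ∪ (A \ c) ∪ (c \ A))).ncard :=
          Set.ncard_le_ncard (inter_subset_inter_left _ hPA) (hF.subset inter_subset_right)
        rw [inter_comm c P] at w3
        omega)
      (by
        intro hfin
        have e : b = c := reps_anti hinf hanti hb hc (LeF.trans hbQ hfin)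
        subst e
        have hF : ((Q \ b) ∪ (B \ b) ∪ (b \ B)).Finite := (hfin.union hBb.1).union hBb.2.1
        have w1 := (bal_iff_window hF (A := B) (B := b)
          (fun x hx => Or.inl (Or.inr hx)) (fun x hx => Or.inr hx)).1 hBb
        have w2 := ncard_window hF (A := Q) (B := b) (fun x hx => Or.inl (Or.inl hx))
        have w3 := ncard_window hF (A := b) (B := Q)
          (fun x hx => Or.inr ⟨hx.1, fun h => hx.2 (hBQ h)⟩)
        have w4 : (B ∩ ((Q \ b) ∪ (B \ b) ∪ (b \ B))).ncard ≤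
            (Q ∩ ((Q \ b) ∪ (B \ b) ∪ (b \ B))).ncard :=
          Set.ncard_le_ncard (inter_subset_inter_left _ hBQ) (hF.subset inter_subset_right)
        rw [inter_comm b Q] at w3
        omega)
    exact ⟨D, ⟨c, hc, hD⟩, h1, h2⟩

end

end Vale.Agent.P068
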